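import Vale.Agent.P372.Lin

namespace Vale.Agent.P372

open Matrix
open scoped Kronecker MatrixOrder ComplexOrder

/-- `K'` is a Kraus family for the transpose of the dual map of the Kraus family `K`. -/
def CoKraus {A C I : Type} [Fintype I] (K K' : I → Matrix A C ℂ) : Prop :=
  ∀ a c a' c', ∑ i, star (K i a c) * K i a' c' = ∑ i, star (K' i a c') * K' i a' c

/-- The dual map of a Kraus family. -/
def dualMap {A C I : Type} [Fintype A] [Fintype I] (K : I → Matrix A C ℂ) (X : Matrix A A ℂ) :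
    Matrix C C ℂ := ∑ i, (K i)ᴴ * X * K i

lemma dualMap_apply {A C I : Type} [Fintype A] [Fintype I] (K : I → Matrix A C ℂ)
    (X : Matrix A A ℂ) (c c' : C) :
    dualMap K X c c' = ∑ a, ∑ a', X a a' * ∑ i, star (K i a c) * K i a' c' := by
  simp only [dualMap, Matrix.sum_apply, Matrix.mul_apply, conjTranspose_apply, Finset.sum_mul,
    Finset.mul_sum]
  rw [Finset.sum_comm]
  conv_rhs => rw [Finset.sum_comm]
  refine Finset.sum_congr rfl fun a' _ => ?_
  rw [Finset.sum_comm]
  refine Finset.sum_congr rfl fun a _ => Finset.sum_congr rfl fun i _ => ?_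
  ring

lemma CoKraus.transpose {A C I : Type} [Fintype A] [Fintype I] {K K' : I → Matrix A C ℂ}
    (h : CoKraus K K') (X : Matrix A A ℂ) : (dualMap K X)ᵀ = dualMap K' X := by
  ext c c'
  rw [transpose_apply, dualMap_apply, dualMap_apply]
  simp only [h _ c' _ c]

lemma CoKraus.kron {A C I B D J : Type} [Fintype I] [Fintype J] {K K' : I → Matrix A C ℂ}
    {L L' : J → Matrix B D ℂ} (h : CoKraus K K') (h' : CoKraus L L') :
    CoKraus (fun p : I × J => K p.1 ⊗ₖ L p.2) (fun p : I × J => K' p.1 ⊗ₖ L' p.2) := by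
  rintro ⟨a, b⟩ ⟨c, d⟩ ⟨a', b'⟩ ⟨c', d'⟩
  have e : ∀ (f : I → ℂ) (g : J → ℂ), ∑ p : I × J, f p.1 * g p.2 = (∑ i, f i) * ∑ j, g j := by
    intro f g
    rw [Fintype.sum_prod_type, Finset.sum_mul_sum]
  have e1 := e (fun i => star (K i a c) * K i a' c') (fun j => star (L j b d) * L j b' d')
  have e2 := e (fun i => star (K' i a c') * K' i a' c) (fun j => star (L' j b d') * L' j b' d)
  rw [h, h', ← e2] at e1
  simp only [kroneckerMap_apply, star_mul']
  convert e1 using 2 <;> ring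

/-- Tensor power of a Kraus family. -/
def piKraus {A C I : Type} (K : I → Matrix A C ℂ) (n : ℕ) (i : Fin n → I) :
    Matrix (Fin n → A) (Fin n → C) ℂ := Matrix.of fun a c => ∏ r, K (i r) (a r) (c r)

lemma CoKraus.pi {A C I : Type} [Fintype I] {K K' : I → Matrix A C ℂ} (h : CoKraus K K')
    (n : ℕ) : CoKraus (piKraus K n) (piKraus K' n) := by
  classical
  intro a c a' c'
  have e : ∀ f : Fin n → I → ℂ, ∑ i : Fin n → I, ∏ r, f r (i r) = ∏ r, ∑ i, f r i := by
    intro f
    rw [Finset.prod_univ_sum, Fintype.piFinset_univ]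
  simp only [piKraus, of_apply, star_prod, ← Finset.prod_mul_distrib]
  rw [e (fun r i => star (K i (a r) (c r)) * K i (a' r) (c' r)),
    e (fun r i => star (K' i (a r) (c' r)) * K' i (a' r) (c r))]
  simp only [h _ (c _) _ (c' _)]

lemma CoKraus.mul_left {A C I F : Type} [Fintype I] [Fintype A] {K K' : I → Matrix A C ℂ}
    (h : CoKraus K K') (V : Matrix F A ℂ) :
    CoKraus (fun i => V * K i) (fun i => V * K' i) := by
  intro f c f' c'
  have e : ∀ (G : I → Matrix A C ℂ) (d d' : C), ∑ i, star ((V * G i) f d) * (V * G i) f' d' =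
      ∑ a, ∑ a', star (V f a) * V f' a' * ∑ i, star (G i a d) * G i a' d' := by
    intro G d d'
    simp only [Matrix.mul_apply, star_sum, star_mul', Finset.sum_mul, Finset.mul_sum]
    rw [Finset.sum_comm]
    conv_rhs => rw [Finset.sum_comm]
    refine Finset.sum_congr rfl fun a' _ => ?_
    rw [Finset.sum_comm]
    refine Finset.sum_congr rfl fun a _ => Finset.sum_congr rfl fun i _ => ?_
    ring
  rw [e, e]
  simp only [h _ c _ c']

lemma CoKraus.reindex {A C I F : Type} [Fintype I] {K K' : I → Matrix A C ℂ}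
    (h : CoKraus K K') (s : F → A) :
    CoKraus (fun i => (K i).submatrix s id) (fun i => (K' i).submatrix s id) :=
  fun f c f' c' => h (s f) c (s f') c'

lemma CoKraus.smul {A C I : Type} [Fintype I] {K K' : I → Matrix A C ℂ}
    (h : CoKraus K K') (z : ℂ) : CoKraus (fun i => z • K i) (fun i => z • K' i) := by
  intro a c a' c'
  have e : ∀ (G : I → Matrix A C ℂ) (d d' : C), ∑ i, star ((z • G i) a d) * (z • G i) a' d' =
      star z * z * ∑ i, star (G i a d) * G i a' d' := by
    intro G d d'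
    simp only [Matrix.smul_apply, smul_eq_mul, star_mul', Finset.mul_sum]
    refine Finset.sum_congr rfl fun i _ => ?_
    ring
  rw [e, e, h]

lemma dualMap_psd {A C I : Type} [Fintype A] [Fintype I] [Finite C] (K : I → Matrix A C ℂ)
    {X : Matrix A A ℂ} (hX : X.PosSemidef) : (dualMap K X).PosSemidef :=
  posSemidef_sum _ fun i _ => hX.conjTranspose_mul_mul_same (K i)

lemma dualMap_conjTranspose {A C I : Type} [Fintype A] [Fintype I] (K : I → Matrix A C ℂ)
    (X : Matrix A A ℂ) : (dualMap K X)ᴴ = dualMap K Xᴴ := by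
  simp [dualMap, conjTranspose_sum, Matrix.mul_assoc]

lemma dualMap_blocks {A C I : Type} [Fintype A] [Fintype I] [Finite C] (K : I → Matrix A C ℂ)
    {P Z Z' Q : Matrix A A ℂ} (h : (fromBlocks P Z Z' Q).PosSemidef) :
    (fromBlocks (dualMap K P) (dualMap K Z) (dualMap K Z') (dualMap K Q)).PosSemidef := by
  have := dualMap_psd (fun i => fromBlocks (K i) 0 0 (K i)) h
  convert this using 1
  simp only [dualMap, fromBlocks_conjTranspose, fromBlocks_multiply]
  ext (x | x) (y | y) <;> simp [Matrix.sum_apply]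

lemma dualMap_kron {A C I B D J : Type} [Fintype A] [Fintype B] [Fintype I] [Fintype J]
    (K : I → Matrix A C ℂ) (L : J → Matrix B D ℂ) (M : Matrix A A ℂ) (N : Matrix B B ℂ) :
    dualMap (fun p : I × J => K p.1 ⊗ₖ L p.2) (M ⊗ₖ N) = dualMap K M ⊗ₖ dualMap L N := by
  simp only [dualMap, conjTranspose_kronecker, ← mul_kronecker_mul, Fintype.sum_prod_type]
  ext ⟨c, d⟩ ⟨c', d'⟩
  simp only [Matrix.sum_apply, kroneckerMap_apply, Finset.sum_mul_sum]

/-- The output of a Kraus family on a vector. -/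
def krausOut {H G I : Type} [Fintype G] [Fintype I] (K : I → Matrix H G ℂ) (w : G → ℂ) :
    Matrix H H ℂ := ∑ i, vecMulVec (K i *ᵥ w) (star (K i *ᵥ w))

lemma trace_mul_krausOut {H G I : Type} [Fintype H] [Fintype G] [Fintype I]
    (K : I → Matrix H G ℂ) (w : G → ℂ) (X : Matrix H H ℂ) :
    (X * krausOut K w).trace = star w ⬝ᵥ dualMap K X *ᵥ w := by
  simp only [krausOut, dualMap, Matrix.mul_sum, trace_sum, Matrix.sum_mulVec, dotProduct_sum]
  refine Finset.sum_congr rfl fun i _ => ?_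
  rw [mul_vecMulVec, trace_vecMulVec, dotProduct_comm, ← mulVec_mulVec, ← mulVec_mulVec,
    dotProduct_mulVec (star w), ← star_mulVec]

/-- The overlap inequality. -/
def Good {A B : Type} [Fintype A] [Fintype B] (ρ : Matrix (A × B) (A × B) ℂ) : Prop :=
  ∀ (M0 M1 : Matrix A A ℂ) (N0 N1 : Matrix B B ℂ) (Z : Matrix (A × B) (A × B) ℂ),
    M0.PosSemidef → M1.PosSemidef → N0.PosSemidef → N1.PosSemidef →
    (fromBlocks (M0 ⊗ₖ N0) Zᴴ Z (M1 ⊗ₖ N1)).PosSemidef →
    2 * (Z * ρ).trace.re ≤ ((M0 ⊗ₖ N1) * ρ).trace.re + ((M1 ⊗ₖ N0) * ρ).trace.re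

theorem good_krausOut {A C I B D J : Type} [Fintype A] [Fintype B] [Fintype C] [Fintype D]
    [Fintype I] [Fintype J] {K K' : I → Matrix A C ℂ} {L L' : J → Matrix B D ℂ}
    (h : CoKraus K K') (h' : CoKraus L L') (w : C × D → ℂ) :
    Good (krausOut (fun p : I × J => K p.1 ⊗ₖ L p.2) w) := by
  classical
  intro M0 M1 N0 N1 Z hM0 hM1 hN0 hN1 hb
  set T := fun p : I × J => K p.1 ⊗ₖ L p.2 with hT
  have hco := h.kron h'
  have b1 := dualMap_blocks T hb
  have b2 := (dualMap_blocks (fun p : I × J => K' p.1 ⊗ₖ L' p.2) hb).transpose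
  rw [fromBlocks_transpose, ← hco.transpose, ← hco.transpose, ← hco.transpose, ← hco.transpose,
    transpose_transpose, transpose_transpose, transpose_transpose, transpose_transpose] at b2
  set Z' := dualMap T Z with hZ'
  have hZc : dualMap T Zᴴ = Z'ᴴ := (dualMap_conjTranspose T Z).symm
  rw [hZc] at b1 b2
  set X : Matrix (C × D) (C × D) ℂ := (1 / 2 : ℂ) • (Z' + Z'ᴴ) with hX
  have hXh : X.IsHermitian := by
    rw [IsHermitian, hX, conjTranspose_smul, conjTranspose_add, conjTranspose_conjTranspose,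
      add_comm]
    simp
  have b3 : (fromBlocks (dualMap T (M0 ⊗ₖ N0)) X X (dualMap T (M1 ⊗ₖ N1))).PosSemidef := by
    have := (b1.add b2).smul (a := (1 / 2 : ℂ)) (by positivity)
    convert this using 1
    rw [fromBlocks_add, fromBlocks_smul, hX, add_comm Z'ᴴ Z']
    congr 1 <;> module
  rw [hT, dualMap_kron, dualMap_kron] at b3
  have := swap_re (dualMap_psd K hM0) (dualMap_psd L hN0) (dualMap_psd K hM1) (dualMap_psd L hN1)
    hXh b3 w
  rw [trace_mul_krausOut, trace_mul_krausOut, trace_mul_krausOut, hT, dualMap_kron, dualMap_kron]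
  convert this using 2
  have e : star w ⬝ᵥ Z'ᴴ *ᵥ w = star (star w ⬝ᵥ Z' *ᵥ w) := by
    rw [dotProduct_mulVec, ← star_mulVec, star_dotProduct]
  rw [hX, smul_mulVec, add_mulVec, dotProduct_smul, dotProduct_add, e]
  simp [hZ', hT]
  ring

/-- For a state with the overlap inequality, Eve can guess the bit whenever the honest parties
agree, up to their disagreement probability. -/
theorem eve_test {A B E : Type} [Fintype A] [Fintype B] [Fintype E] [DecidableEq E]
    (R : Matrix (A × B) E ℂ) (hg : Good (R * Rᴴ)) {M0 M1 : Matrix A A ℂ} {N0 N1 : Matrix B B ℂ}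
    (hM0 : M0.PosSemidef) (hM1 : M1.PosSemidef) (hN0 : N0.PosSemidef) (hN1 : N1.PosSemidef) :
    ∃ O : Matrix E E ℂ, IsContr O ∧
      (Rᴴ * (M0 ⊗ₖ N0) * R).trace.re + (Rᴴ * (M1 ⊗ₖ N1) * R).trace.re ≤
        (O * (Rᴴ * (M0 ⊗ₖ N0) * R)).trace.re - (O * (Rᴴ * (M1 ⊗ₖ N1) * R)).trace.re +
          (Rᴴ * (M0 ⊗ₖ N1) * R).trace.re + (Rᴴ * (M1 ⊗ₖ N0) * R).trace.re := by
  classical
  obtain ⟨Z, a, b, ha, hb, haa, hbb, hZ, hZR⟩ :=
    exists_block (hM0.kronecker hN0) (hM1.kronecker hN1) R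
  obtain ⟨O, hO, hPS⟩ := powers_stormer ha hb
  refine ⟨O, hO, ?_⟩
  have tr : ∀ X : Matrix (A × B) (A × B) ℂ, (X * (R * Rᴴ)).trace = (Rᴴ * X * R).trace := by
    intro X
    rw [← Matrix.mul_assoc, trace_mul_comm, Matrix.mul_assoc]
  have := hg M0 M1 N0 N1 Z hM0 hM1 hN0 hN1 hZ
  rw [tr, tr, tr, hZR] at this
  rw [haa, hbb, Matrix.mul_sub, trace_sub, Complex.sub_re] at hPS
  linarith

end Vale.Agent.P372
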