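import Vale.Agent.P372.Defs
import Vale.Agent.P372.Swap

namespace Vale.Agent.P372

open Matrix Filter Topology
open scoped Kronecker MatrixOrder ComplexOrder ENNReal

lemma traceLeft_cycle {h h' e : Type} [Fintype h] [Fintype h'] [Fintype e] [DecidableEq e]
    (X : Matrix (h × e) (h' × e) ℂ) (G : Matrix h' h ℂ) :
    traceLeft (X * (G ⊗ₖ (1 : Matrix e e ℂ))) = traceLeft ((G ⊗ₖ (1 : Matrix e e ℂ)) * X) := by
  ext i j
  simp only [traceLeft, of_apply, Matrix.mul_apply, Fintype.sum_prod_type, kroneckerMap_apply,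
    one_apply, mul_ite, mul_one, mul_zero, Finset.sum_ite_eq', Finset.mem_univ, if_true, ite_mul,
    zero_mul, Finset.sum_ite_eq]
  rw [Finset.sum_comm]
  simp only [mul_comm]

lemma traceLeft_sum {h e I : Type} [Fintype h] [Fintype I] (X : I → Matrix (h × e) (h × e) ℂ) :
    traceLeft (∑ i, X i) = ∑ i, traceLeft (X i) := by
  ext i j
  simp only [traceLeft, of_apply, Matrix.sum_apply]
  rw [Finset.sum_comm]

lemma sum_kronecker' {a a' b b' I : Type} [Fintype I] (X : I → Matrix a a' ℂ) (Y : Matrix b b' ℂ) :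
    (∑ i, X i) ⊗ₖ Y = ∑ i, X i ⊗ₖ Y := by
  ext ⟨x, y⟩ ⟨x', y'⟩
  simp [Matrix.sum_apply, Finset.sum_mul]

lemma kronecker_sum' {a a' b b' I : Type} [Fintype I] (X : Matrix a a' ℂ) (Y : I → Matrix b b' ℂ) :
    X ⊗ₖ (∑ i, Y i) = ∑ i, X ⊗ₖ Y i := by
  ext ⟨x, y⟩ ⟨x', y'⟩
  simp [Matrix.sum_apply, Finset.mul_sum]

lemma traceLeft_step {h h' e I : Type} [Fintype h] [Fintype h'] [Fintype e] [DecidableEq e]
    [Fintype I] (X : Matrix h' h' ℂ) (G : I → Matrix h' h ℂ) (ρ : Matrix (h × e) (h × e) ℂ) :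
    traceLeft ((X ⊗ₖ (1 : Matrix e e ℂ)) *
      ∑ i, (G i ⊗ₖ (1 : Matrix e e ℂ)) * ρ * (G i ⊗ₖ (1 : Matrix e e ℂ))ᴴ) =
      traceLeft ((dualMap G X ⊗ₖ (1 : Matrix e e ℂ)) * ρ) := by
  rw [dualMap, sum_kronecker', Matrix.sum_mul, Matrix.mul_sum, traceLeft_sum, traceLeft_sum]
  refine Finset.sum_congr rfl fun i _ => ?_
  rw [conjTranspose_kronecker, conjTranspose_one, ← Matrix.mul_assoc, traceLeft_cycle,
    ← Matrix.mul_assoc, ← Matrix.mul_assoc, ← mul_kronecker_mul, ← mul_kronecker_mul]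
  simp

lemma dualMap_kron_one {A C I B : Type} [Fintype A] [Fintype B] [DecidableEq B] [Fintype I]
    (K : I → Matrix A C ℂ) (M : Matrix A A ℂ) (N : Matrix B B ℂ) :
    dualMap (fun i => K i ⊗ₖ (1 : Matrix B B ℂ)) (M ⊗ₖ N) = dualMap K M ⊗ₖ N := by
  simp only [dualMap, conjTranspose_kronecker, ← mul_kronecker_mul, sum_kronecker']
  simp

lemma dualMap_one_kron {A C I B : Type} [Fintype A] [Fintype B] [DecidableEq B] [Fintype I]
    (K : I → Matrix A C ℂ) (M : Matrix A A ℂ) (N : Matrix B B ℂ) :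
    dualMap (fun i => (1 : Matrix B B ℂ) ⊗ₖ K i) (N ⊗ₖ M) = N ⊗ₖ dualMap K M := by
  simp only [dualMap, conjTranspose_kronecker, ← mul_kronecker_mul, kronecker_sum']
  simp

theorem branch_eq {K : Type} [Fintype K] {E : Type} [Fintype E] [DecidableEq E] {a b : ℕ}
    (P : Protocol K a b) :
    ∃ (M : Transcript P → K → Matrix (Fin a) (Fin a) ℂ)
      (N : Transcript P → K → Matrix (Fin b) (Fin b) ℂ),
      (∀ t k, (M t k).PosSemidef) ∧ (∀ t k, (N t k).PosSemidef) ∧
      ∀ ρ t k l, branch (E := E) P ρ t k l =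
        traceLeft (((M t k ⊗ₖ N t l) ⊗ₖ (1 : Matrix E E ℂ)) * ρ) := by
  induction P with
  | output M N hM hN =>
    exact ⟨fun _ => M, fun _ => N, fun _ => hM.1, fun _ => hN.1, fun _ _ _ _ => rfl⟩
  | alice m r d F hF next ih =>
    choose M N hM hN h using ih
    refine ⟨fun t k => dualMap (F t.1) (M t.1 t.2 k), fun t l => N t.1 t.2 l,
      fun t k => dualMap_psd _ (hM _ _ _), fun t k => hN _ _ _, ?_⟩
    intro ρ t k l
    rw [branch, h, traceLeft_step, dualMap_kron_one]
  | bob m r d F hF next ih =>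
    choose M N hM hN h using ih
    refine ⟨fun t k => M t.1 t.2 k, fun t l => dualMap (F t.1) (N t.1 t.2 l),
      fun t k => hM _ _ _, fun t k => dualMap_psd _ (hN _ _ _), ?_⟩
    intro ρ t k l
    rw [branch, h, traceLeft_step, dualMap_one_kron]

/-- A vector on a product as a matrix. -/
def asMat {h e : Type} (ψ : h × e → ℂ) : Matrix h e ℂ := Matrix.of fun x i => ψ (x, i)

lemma traceLeft_pure {h e : Type} [Fintype h] [Fintype e] [DecidableEq e] (X : Matrix h h ℂ)
    (ψ : h × e → ℂ) :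
    traceLeft ((X ⊗ₖ (1 : Matrix e e ℂ)) * pureState ψ) = ((asMat ψ)ᴴ * X * asMat ψ)ᵀ := by
  ext i j
  simp only [traceLeft, of_apply, Matrix.mul_apply, Fintype.sum_prod_type, kroneckerMap_apply,
    one_apply, mul_ite, mul_one, mul_zero, Finset.mem_univ, if_true, ite_mul,
    zero_mul, Finset.sum_ite_eq, pureState, vecMulVec_apply, asMat, transpose_apply,
    conjTranspose_apply, Pi.star_apply, Finset.sum_mul]
  rw [Finset.sum_comm]
  refine Finset.sum_congr rfl fun x _ => Finset.sum_congr rfl fun y _ => ?_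
  ring

lemma traceRight_pure {h e : Type} [Fintype e] (ψ : h × e → ℂ) :
    traceRight (pureState ψ) = asMat ψ * (asMat ψ)ᴴ := by
  ext x y
  simp [traceRight, pureState, asMat, Matrix.mul_apply, vecMulVec_apply]

section Diag

variable {J n : Type} [Fintype J] [DecidableEq J]

/-- Block diagonal matrix with the block label first. -/
def leftDiag (f : J → Matrix n n ℂ) : Matrix (J × n) (J × n) ℂ :=
  ∑ j, single j j (1 : ℂ) ⊗ₖ f j

/-- Block diagonal matrix with the block label last. -/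
def rightDiag (f : J → Matrix n n ℂ) : Matrix (n × J) (n × J) ℂ :=
  ∑ j, f j ⊗ₖ single j j (1 : ℂ)

lemma leftDiag_apply (f : J → Matrix n n ℂ) (j j' : J) (x y : n) :
    leftDiag f (j, x) (j', y) = if j = j' then f j x y else 0 := by
  simp only [leftDiag, Matrix.sum_apply, kroneckerMap_apply, single_apply]
  rw [Finset.sum_eq_single j]
  · by_cases h : j = j' <;> simp [h]
  · intro i _ hi; simp [hi]
  · simp

lemma rightDiag_apply (f : J → Matrix n n ℂ) (j j' : J) (x y : n) :
    rightDiag f (x, j) (y, j') = if j = j' then f j x y else 0 := by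
  simp only [rightDiag, Matrix.sum_apply, kroneckerMap_apply, single_apply]
  rw [Finset.sum_eq_single j]
  · by_cases h : j = j' <;> simp [h]
  · intro i _ hi; simp [hi]
  · simp

lemma single_psd (j : J) : (single j j (1 : ℂ)).PosSemidef := by
  have := posSemidef_conjTranspose_mul_self (single j j (1 : ℂ))
  simpa using this

lemma leftDiag_psd [Finite n] {f : J → Matrix n n ℂ} (hf : ∀ j, (f j).PosSemidef) :
    (leftDiag f).PosSemidef :=
  posSemidef_sum _ fun j _ => (single_psd j).kronecker (hf j)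

lemma rightDiag_psd [Finite n] {f : J → Matrix n n ℂ} (hf : ∀ j, (f j).PosSemidef) :
    (rightDiag f).PosSemidef :=
  posSemidef_sum _ fun j _ => (hf j).kronecker (single_psd j)

variable [Fintype n] [DecidableEq n]

lemma leftDiag_contr {f : J → Matrix n n ℂ} (hf : ∀ j, IsContr (f j)) : IsContr (leftDiag f) := by
  constructor
  · convert leftDiag_psd (fun j => (hf j).1) using 1
    ext ⟨j, x⟩ ⟨j', y⟩
    simp only [Matrix.sub_apply, leftDiag_apply, one_apply, Prod.mk.injEq]
    by_cases h : j = j' <;> simp [h]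
  · convert leftDiag_psd (fun j => (hf j).2) using 1
    ext ⟨j, x⟩ ⟨j', y⟩
    simp only [Matrix.add_apply, leftDiag_apply, one_apply, Prod.mk.injEq]
    by_cases h : j = j' <;> simp [h]

lemma rightDiag_contr {f : J → Matrix n n ℂ} (hf : ∀ j, IsContr (f j)) :
    IsContr (rightDiag f) := by
  constructor
  · convert rightDiag_psd (fun j => (hf j).1) using 1
    ext ⟨x, j⟩ ⟨y, j'⟩
    simp only [Matrix.sub_apply, rightDiag_apply, one_apply, Prod.mk.injEq]
    by_cases h : j = j' <;> simp [h]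
  · convert rightDiag_psd (fun j => (hf j).2) using 1
    ext ⟨x, j⟩ ⟨y, j'⟩
    simp only [Matrix.add_apply, rightDiag_apply, one_apply, Prod.mk.injEq]
    by_cases h : j = j' <;> simp [h]

omit [DecidableEq n] in
lemma trace_leftDiag_mul (f g : J → Matrix n n ℂ) :
    (leftDiag f * leftDiag g).trace = ∑ j, (f j * g j).trace := by
  simp only [trace, diag_apply, Matrix.mul_apply, Fintype.sum_prod_type, leftDiag_apply, ite_mul,
    zero_mul]
  refine Finset.sum_congr rfl fun j _ => Finset.sum_congr rfl fun x _ => ?_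
  rw [Finset.sum_eq_single j]
  · simp
  · intro i _ hi; simp [hi.symm]
  · simp

omit [DecidableEq n] in
lemma trace_rightDiag_mul (f g : J → Matrix n n ℂ) :
    (rightDiag f * rightDiag g).trace = ∑ j, (f j * g j).trace := by
  simp only [trace, diag_apply, Matrix.mul_apply, Fintype.sum_prod_type, rightDiag_apply, ite_mul,
    zero_mul]
  rw [Finset.sum_comm]
  refine Finset.sum_congr rfl fun j _ => Finset.sum_congr rfl fun x _ =>
    Finset.sum_congr rfl fun y _ => ?_
  rw [Finset.sum_eq_single j]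
  · simp
  · intro i _ hi; simp [hi.symm]
  · simp

lemma rightDiag_add (f g : J → Matrix n n ℂ) :
    rightDiag f + rightDiag g = rightDiag (fun j => f j + g j) := by
  simp [rightDiag, add_kronecker, Finset.sum_add_distrib]

lemma rightDiag_neg_one : rightDiag (fun _ : J => (-1 : Matrix n n ℂ)) = -1 := by
  ext ⟨x, j⟩ ⟨y, j'⟩
  simp only [Matrix.neg_apply, rightDiag_apply, one_apply, Prod.mk.injEq]
  by_cases h : j = j' <;> simp [h]

end Diag

lemma sum_bool_flip {K : Type} [Fintype K] (c : K → Bool) (s : K ≃ K) (hs : ∀ k, c (s k) = !c k)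
    (f : Bool → ℂ) : 2 * ∑ k, f (c k) = Fintype.card K * (f false + f true) := by
  have h1 : ∑ k, f (c k) = ∑ k, f (!c k) := by
    rw [← Equiv.sum_comp s]; simp only [hs]
  rw [two_mul]
  conv_lhs => arg 2; rw [h1]
  rw [← Finset.sum_add_distrib]
  have : ∀ k, f (c k) + f (!c k) = f false + f true := by
    intro k; cases c k <;> simp [add_comm]
  simp [this, mul_add]

lemma sum_group {K : Type} [Fintype K] {X : Type} [AddCommMonoid X] (c : K → Bool)
    (g : Bool → K → X) :
    ∑ k, g (c k) k = ∑ i : Bool, ∑ k, if c k = i then g i k else 0 := by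
  rw [Finset.sum_comm]
  refine Finset.sum_congr rfl fun k _ => ?_
  rw [Finset.sum_ite_eq]; simp

lemma group_trace {K A B E : Type} [Fintype K] [Fintype A] [Fintype B] [Fintype E] (c : K → Bool)
    (M : K → Matrix A A ℂ) (N : K → Matrix B B ℂ) (R : Matrix (A × B) E ℂ)
    (W : Bool → Bool → Matrix E E ℂ) :
    ∑ k, ∑ l, (Rᴴ * (M k ⊗ₖ N l) * R * W (c k) (c l)).trace =
      ∑ i, ∑ j, (W i j * (Rᴴ * ((∑ k, if c k = i then M k else 0) ⊗ₖ
        (∑ l, if c l = j then N l else 0)) * R)).trace := by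
  rw [sum_group c (fun i k => ∑ l, (Rᴴ * (M k ⊗ₖ N l) * R * W i (c l)).trace)]
  refine Finset.sum_congr rfl fun i _ => ?_
  simp only [sum_kronecker']
  simp only [kronecker_sum', Matrix.mul_sum, Matrix.sum_mul, trace_sum]
  rw [Finset.sum_comm]
  refine Finset.sum_congr rfl fun k _ => ?_
  by_cases hk : c k = i
  · simp only [if_pos hk]
    rw [sum_group c (fun j l => (Rᴴ * (M k ⊗ₖ N l) * R * W i j).trace)]
    refine Finset.sum_congr rfl fun j _ => Finset.sum_congr rfl fun l _ => ?_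
    split_ifs
    · rw [trace_mul_comm]
    · simp
  · simp [if_neg hk]

/-- Flip the first bit. -/
def flipPerm (ℓ : ℕ) : (Fin (ℓ + 1) → Bool) ≃ (Fin (ℓ + 1) → Bool) :=
  Function.Involutive.toPerm (fun k => Function.update k 0 (!k 0)) (by intro k; simp)

lemma flipPerm_zero (ℓ : ℕ) (k : Fin (ℓ + 1) → Bool) : flipPerm ℓ k 0 = !k 0 := by
  show Function.update k 0 (!k 0) 0 = !k 0
  simp

lemma contr_family {E : Type} [Fintype E] [DecidableEq E] {O : Matrix E E ℂ} (hO : IsContr O) :
    IsContr ((1 / 2 : ℂ) • (O - 1)) ∧ IsContr ((1 / 2 : ℂ) • (-O - 1)) ∧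
      IsContr ((1 / 2 : ℂ) • (1 : Matrix E E ℂ)) := by
  have h12 : (0 : ℂ) ≤ 1 / 2 := by positivity
  have p1 := hO.1.smul h12
  have p2 := hO.2.smul h12
  have p3 := (PosSemidef.one (n := E) (R := ℂ)).smul h12
  have p4 := PosSemidef.one (n := E) (R := ℂ)
  refine ⟨⟨?_, ?_⟩, ⟨?_, ?_⟩, ⟨?_, ?_⟩⟩
  · convert p1.add p4 using 1; module
  · convert p2 using 1; module
  · convert p2.add p4 using 1; module
  · convert p1 using 1; module
  · convert p3 using 1; module
  · exact p4.add p3

theorem half_le_error {ℓ : ℕ} {E : Type} [Fintype E] [DecidableEq E] {a b : ℕ}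
    (P : Protocol (Fin (ℓ + 1) → Bool) a b) (ψ : (Fin a × Fin b) × E → ℂ)
    (hg : Good (traceRight (pureState ψ))) {ε : ℝ} (h : HasError P (pureState ψ) ε) :
    1 / 2 ≤ ε := by
  obtain ⟨σ, ⟨hσ, hσ1⟩, hε⟩ := h
  obtain ⟨M, N, hM, hN, hb⟩ := branch_eq (E := E) P
  rw [traceRight_pure] at hg
  set R := asMat ψ with hR
  let c : (Fin (ℓ + 1) → Bool) → Bool := fun k => k 0
  let Mb : Transcript P → Bool → Matrix (Fin a) (Fin a) ℂ :=
    fun t i => ∑ k, if c k = i then M t k else 0
  let Nb : Transcript P → Bool → Matrix (Fin b) (Fin b) ℂ :=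
    fun t i => ∑ k, if c k = i then N t k else 0
  have hMb : ∀ t i, (Mb t i).PosSemidef := fun t i =>
    posSemidef_sum _ fun k _ => by split_ifs; exacts [hM t k, PosSemidef.zero]
  have hNb : ∀ t i, (Nb t i).PosSemidef := fun t i =>
    posSemidef_sum _ fun k _ => by split_ifs; exacts [hN t k, PosSemidef.zero]
  choose O hO hOi using fun t =>
    eve_test R hg (hMb t false) (hMb t true) (hNb t false) (hNb t true)
  let W : Bool → Bool → Transcript P → Matrix E E ℂ := fun i j t =>
    match i, j with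
    | false, false => (1 / 2 : ℂ) • (O t - 1)
    | true, true => (1 / 2 : ℂ) • (-O t - 1)
    | _, _ => (1 / 2 : ℂ) • 1
  have hW : ∀ i j t, IsContr (W i j t) := by
    intro i j t
    obtain ⟨q1, q2, q3⟩ := contr_family (hO t)
    cases i <;> cases j
    exacts [q1, q3, q3, q2]
  have hWT : ∀ i j t, IsContr (W i j t)ᵀ := fun i j t =>
    ⟨by simpa using (hW i j t).1.transpose, by simpa using (hW i j t).2.transpose⟩
  let V : (Fin (ℓ + 1) → Bool) × (Fin (ℓ + 1) → Bool) →
      Matrix (E × Transcript P) (E × Transcript P) ℂ :=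
    fun kl => rightDiag fun t => (W (c kl.1) (c kl.2) t)ᵀ
  have hV : IsContr (leftDiag V) := leftDiag_contr fun kl => rightDiag_contr fun t => hWT _ _ t
  have hτ : finalState P (pureState ψ) = leftDiag fun kl =>
      rightDiag fun t => (Rᴴ * (M t kl.1 ⊗ₖ N t kl.2) * R)ᵀ := by
    simp only [finalState, leftDiag, rightDiag, Fintype.sum_prod_type, kronecker_sum', hb,
      traceLeft_pure, hR]
  have hι : ∑ z : Fin (ℓ + 1) → Bool, single (z, z) (z, z) (1 : ℂ) ⊗ₖ σ =
      leftDiag fun kl => if kl.1 = kl.2 then σ else 0 := by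
    simp only [leftDiag, Fintype.sum_prod_type]
    refine Finset.sum_congr rfl fun z _ => ?_
    rw [Finset.sum_eq_single z]
    · simp
    · intro i _ hi; simp [hi.symm]
    · simp
  rw [hτ, hι] at hε
  have hX : ((leftDiag fun kl : (Fin (ℓ + 1) → Bool) × (Fin (ℓ + 1) → Bool) =>
      rightDiag fun t => (Rᴴ * (M t kl.1 ⊗ₖ N t kl.2) * R)ᵀ) -
      ((2 : ℂ) ^ (ℓ + 1))⁻¹ • leftDiag fun kl : (Fin (ℓ + 1) → Bool) × (Fin (ℓ + 1) → Bool) =>
        if kl.1 = kl.2 then σ else 0).IsHermitian := by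
    refine IsHermitian.sub (leftDiag_psd fun kl => rightDiag_psd fun t =>
      (((hM _ _).kronecker (hN _ _)).conjTranspose_mul_mul_same R).transpose).1 ?_
    refine (PosSemidef.smul (leftDiag_psd fun kl => ?_) (by positivity)).1
    split_ifs; exacts [hσ, PosSemidef.zero]
  have key := (trace_mul_le_sqrt hX hV).trans hε
  rw [Matrix.mul_sub, trace_sub, Matrix.mul_smul, trace_smul, trace_leftDiag_mul,
    trace_leftDiag_mul, Complex.sub_re] at key
  have e1 : ∑ kl : (Fin (ℓ + 1) → Bool) × (Fin (ℓ + 1) → Bool),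
      (V kl * if kl.1 = kl.2 then σ else 0).trace = -(2 : ℂ) ^ ℓ := by
    have e2 : ∑ kl : (Fin (ℓ + 1) → Bool) × (Fin (ℓ + 1) → Bool),
        (V kl * if kl.1 = kl.2 then σ else 0).trace =
        ∑ k, (fun i => (rightDiag (fun t => (W i i t)ᵀ) * σ).trace) (c k) := by
      rw [Fintype.sum_prod_type]
      refine Finset.sum_congr rfl fun z _ => ?_
      rw [Finset.sum_eq_single z]
      · simp [V]
      · intro i _ hi; simp [hi.symm]
      · simp
    have e3 := sum_bool_flip c (flipPerm ℓ) (flipPerm_zero ℓ)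
      (fun i => (rightDiag (fun t => (W i i t)ᵀ) * σ).trace)
    rw [← e2, ← trace_add, ← Matrix.add_mul, rightDiag_add] at e3
    have e4 : (fun t => (W false false t)ᵀ + (W true true t)ᵀ) = fun _ => -1 := by
      funext t
      rw [← transpose_add]
      have : W false false t + W true true t = -1 := by simp only [W]; module
      rw [this]; simp
    rw [e4, rightDiag_neg_one, Matrix.neg_mul, Matrix.one_mul, trace_neg, hσ1] at e3
    simp only [Fintype.card_pi, Fintype.card_bool, Finset.prod_const, Finset.card_univ,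
      Fintype.card_fin] at e3
    push_cast at e3
    linear_combination (1 / 2 : ℂ) * e3
  have e5 : ∑ kl : (Fin (ℓ + 1) → Bool) × (Fin (ℓ + 1) → Bool),
      (V kl * rightDiag fun t => (Rᴴ * (M t kl.1 ⊗ₖ N t kl.2) * R)ᵀ).trace =
      ∑ t, ∑ i, ∑ j, (W i j t * (Rᴴ * (Mb t i ⊗ₖ Nb t j) * R)).trace := by
    simp only [V, trace_rightDiag_mul, ← transpose_mul, trace_transpose]
    rw [Finset.sum_comm]
    refine Finset.sum_congr rfl fun t _ => ?_
    rw [Fintype.sum_prod_type]
    exact group_trace c (M t) (N t) R (fun i j => W i j t)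
  have e6 : 0 ≤ (∑ t, ∑ i, ∑ j, (W i j t * (Rᴴ * (Mb t i ⊗ₖ Nb t j) * R)).trace).re := by
    rw [Complex.re_sum]
    refine Finset.sum_nonneg fun t _ => ?_
    have := hOi t
    simp only [Fintype.sum_bool, W, Matrix.smul_mul, Matrix.sub_mul, Matrix.neg_mul,
      Matrix.one_mul, trace_smul, trace_sub, trace_neg, smul_eq_mul, Complex.add_re]
    have hre : ∀ z : ℂ, ((1 / 2 : ℂ) * z).re = z.re / 2 := by
      intro z; simp; ring
    simp only [hre, Complex.sub_re, Complex.neg_re]
    linarith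
  rw [e1, e5] at key
  have e7 : (((2 : ℂ) ^ (ℓ + 1))⁻¹ • (-(2 : ℂ) ^ ℓ)).re = -(1 / 2) := by
    have : ((2 : ℂ) ^ (ℓ + 1))⁻¹ • (-(2 : ℂ) ^ ℓ) = -(1 / 2) := by
      rw [smul_eq_mul, pow_succ]; field_simp
    rw [this]; simp
  rw [e7] at key
  linarith

theorem keyRate_eq_zero {a b e : ℕ} (ψ : (Fin a × Fin b) × Fin e → ℂ)
    (hg : ∀ n, Good (traceRight (pureState (copies ψ n)))) : keyRate ψ = 0 := by
  simp only [keyRate, ENNReal.iSup_eq_zero]
  intro ℓ P ε hε hP
  have h1 : ∀ᶠ n in atTop, ε n < 1 / 2 := hε.eventually (gt_mem_nhds (by norm_num))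
  have h2 : ∀ᶠ n in atTop, ((ℓ n : ℝ≥0∞) / (n : ℝ≥0∞)) = 0 := by
    filter_upwards [h1] with n hn
    have : ℓ n = 0 := by
      have key : ∀ (l : ℕ) (Q : Protocol (Fin l → Bool) (a ^ n) (b ^ n)),
          HasError Q (pureState (copies ψ n)) (ε n) → l = 0 := by
        intro l Q hQ
        cases l with
        | zero => rfl
        | succ l => exact absurd (half_le_error Q _ (hg n) hQ) (not_le.mpr hn)
      exact key _ (P n) (hP n)
    simp [this]
  rw [liminf_congr h2, liminf_const]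

end Vale.Agent.P372
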