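import Mathlib

namespace Vale.Agent.P372

open Polynomial

lemma moments_zero {F : Type} [CommRing F] {m : ℕ} (φ : Fin m → ℕ) (k : ℕ) :
    ∀ (c : Fin m → F) (n : ℕ), k < n → (X - C (1 : F)) ^ n ∣ ∑ j, C (c j) * X ^ φ j →
      ∑ j, c j * (φ j : F) ^ k = 0 := by
  induction k with
  | zero =>
    intro c n hn h
    have h1 : (X - C (1 : F)) ∣ ∑ j, C (c j) * X ^ φ j :=
      (dvd_pow_self _ (by omega)).trans h
    have := dvd_iff_isRoot.mp h1
    simpa [IsRoot, eval_finsetSum] using this
  | succ k ih =>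
    intro c n hn h
    have h1 := pow_sub_one_dvd_derivative_of_pow_dvd h
    have h2 : (X - C (1 : F)) ^ (n - 1) ∣ ∑ j, C (c j * φ j) * X ^ φ j := by
      have := h1.mul_left X
      convert this using 1
      rw [derivative_sum, Finset.mul_sum]
      refine Finset.sum_congr rfl fun j _ => ?_
      rw [derivative_C_mul, derivative_X_pow]
      rcases Nat.eq_zero_or_pos (φ j) with h0 | h0
      · simp [h0]
      · obtain ⟨u, hu⟩ : ∃ u, φ j = u + 1 := ⟨φ j - 1, by omega⟩
        rw [hu, Nat.add_sub_cancel, C_mul]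
        ring
    have := ih (fun j => c j * φ j) (n - 1) (by omega) h2
    rw [← this]
    refine Finset.sum_congr rfl fun j _ => ?_
    ring

theorem chebotarev {p : ℕ} (hp : p.Prime) {ζ : ℂ} (hζ : IsPrimitiveRoot ζ p) {m : ℕ}
    (φ g : Fin m → ℕ) (hφ : Function.Injective φ) (hg : Function.Injective g)
    (hφp : ∀ j, φ j < p) (hgp : ∀ i, g i < p) :
    (Matrix.of fun i j => ζ ^ (g i * φ j)).det ≠ 0 := by
  classical
  intro hdet
  haveI : Fact p.Prime := ⟨hp⟩
  have hirr : Irreducible (cyclotomic p ℤ) := cyclotomic.irreducible hp.pos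
  set R := AdjoinRoot (cyclotomic p ℤ) with hR
  haveI : IsDomain R := AdjoinRoot.isDomain_of_prime hirr.prime
  haveI : IsNoetherianRing R := Ideal.Quotient.isNoetherianRing _
  set ω : R := AdjoinRoot.root (cyclotomic p ℤ) with hω
  have hmin : cyclotomic p ℤ = minpoly ℤ ζ := cyclotomic_eq_minpoly hζ hp.pos
  have hroot : eval₂ (Int.castRingHom ℂ) ζ (cyclotomic p ℤ) = 0 := by
    rw [hmin]
    exact minpoly.aeval ℤ ζ
  let ι : R →+* ℂ := AdjoinRoot.lift (Int.castRingHom ℂ) ζ hroot
  have hιω : ι ω = ζ := AdjoinRoot.lift_root hroot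
  have hι : Function.Injective ι := by
    rw [injective_iff_map_eq_zero]
    intro x hx
    obtain ⟨f, rfl⟩ := AdjoinRoot.mk_surjective x
    rw [AdjoinRoot.mk_eq_zero, hmin]
    refine minpoly.isIntegrallyClosed_dvd (hζ.isIntegral hp.pos) ?_
    rw [AdjoinRoot.lift_mk] at hx
    exact hx
  have hone : eval₂ (Int.castRingHom (ZMod p)) 1 (cyclotomic p ℤ) = 0 := by
    have := eval₂_at_apply (p := cyclotomic p ℤ) (Int.castRingHom (ZMod p)) 1
    rw [map_one] at this
    rw [this, eval_one_cyclotomic_prime]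
    simp
  let π : R →+* ZMod p := AdjoinRoot.lift (Int.castRingHom (ZMod p)) 1 hone
  have hπω : π ω = 1 := AdjoinRoot.lift_root hone
  have hker : ∀ x : R, π x = 0 → (ω - 1) ∣ x := by
    intro x hx
    obtain ⟨f, rfl⟩ := AdjoinRoot.mk_surjective x
    rw [AdjoinRoot.lift_mk] at hx
    have h1 := eval₂_at_apply (p := f) (Int.castRingHom (ZMod p)) 1
    rw [map_one, hx] at h1
    have h2 : (p : ℤ) ∣ f.eval 1 := (ZMod.intCast_zmod_eq_zero_iff_dvd _ _).mp h1.symm
    have hsub : ∀ q : ℤ[X], (ω - 1) ∣ AdjoinRoot.mk (cyclotomic p ℤ) q -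
        ((q.eval 1 : ℤ) : R) := by
      intro q
      have := map_dvd (AdjoinRoot.mk (cyclotomic p ℤ)) (X_sub_C_dvd_sub_C_eval (p := q) (a := 1))
      simpa [hω] using this
    have h3 := hsub (cyclotomic p ℤ)
    rw [AdjoinRoot.mk_self, eval_one_cyclotomic_prime, zero_sub, dvd_neg] at h3
    obtain ⟨u, hu⟩ := h2
    have h4 : (ω - 1) ∣ ((f.eval 1 : ℤ) : R) := by
      rw [hu, Int.cast_mul]; exact h3.mul_right _
    simpa using (hsub f).add h4
  have hne : ω - 1 ≠ 0 := by
    intro h
    have : ζ = 1 := by rw [← hιω, sub_eq_zero.mp h, map_one]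
    exact hζ.ne_one hp.one_lt this
  have hnu : ¬ IsUnit (ω - 1) := by
    intro h
    have := h.map π
    rw [map_sub, hπω, map_one, sub_self] at this
    exact not_isUnit_zero this
  let W : Matrix (Fin m) (Fin m) R := Matrix.of fun i j => ω ^ (g i * φ j)
  have hW : W.det = 0 := by
    apply hι
    rw [map_zero, RingHom.map_det, ← hdet]
    congr 1
    ext i j
    simp [W, hιω]
  obtain ⟨v, hv0, hv⟩ := Matrix.exists_mulVec_eq_zero_iff.mpr hW
  have hex : ∃ n : ℕ, ¬ ∀ j, (ω - 1) ^ (n + 1) ∣ v j := by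
    obtain ⟨j, hj⟩ := Function.ne_iff.mp hv0
    obtain ⟨n, hn⟩ := FiniteMultiplicity.of_not_isUnit hnu hj
    exact ⟨n, fun h => hn (h j)⟩
  set n := Nat.find hex with hn
  have hn1 : ¬ ∀ j, (ω - 1) ^ (n + 1) ∣ v j := Nat.find_spec hex
  have hn2 : ∀ j, (ω - 1) ^ n ∣ v j := by
    rcases Nat.eq_zero_or_pos n with h0 | h0
    · intro j; rw [h0]; simp
    · have := Nat.find_min hex (m := n - 1) (by omega)
      rw [not_not, Nat.sub_add_cancel h0] at this
      exact this
  choose u hu using hn2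
  have hu1 : ¬ ∀ j, π (u j) = 0 := by
    intro h
    apply hn1
    intro j
    rw [hu j, pow_succ]
    exact mul_dvd_mul_left _ (hker _ (h j))
  have hWu : ∀ i, ∑ j, ω ^ (g i * φ j) * u j = 0 := by
    intro i
    have := congrFun hv i
    simp only [Matrix.mulVec, dotProduct, W, Matrix.of_apply, hu, Pi.zero_apply] at this
    apply mul_left_cancel₀ (pow_ne_zero n hne)
    rw [mul_zero, Finset.mul_sum, ← this]
    refine Finset.sum_congr rfl fun j _ => ?_
    ring
  set G : R[X] := ∑ j, C (u j) * X ^ φ j with hG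
  have hdvd : ∏ i, (X - C (ω ^ g i)) ∣ G := by
    have hinj : Function.Injective fun i => ω ^ g i := by
      intro i i' h
      have := congrArg ι h
      simp only [map_pow, hιω] at this
      exact hg (hζ.pow_inj (hgp i) (hgp i') this)
    by_cases hG0 : G = 0
    · rw [hG0]; exact dvd_zero _
    have hle : (Finset.univ.val.map fun i => ω ^ g i) ≤ G.roots := by
      rw [Multiset.le_iff_subset (Finset.univ.nodup.map hinj)]
      intro x hx
      obtain ⟨i, -, rfl⟩ := Multiset.mem_map.mp hx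
      rw [mem_roots hG0, IsRoot, hG, eval_finsetSum, ← hWu i]
      refine Finset.sum_congr rfl fun j _ => ?_
      rw [eval_mul, eval_C, eval_pow, eval_X, ← pow_mul, mul_comm]
    have := (Multiset.prod_X_sub_C_dvd_iff_le_roots hG0 _).mpr hle
    rwa [Multiset.map_map] at this
  have hmap := Polynomial.map_dvd π hdvd
  have hπg : ∀ i, π (ω ^ g i) = 1 := fun i => by rw [map_pow, hπω, one_pow]
  simp only [hG, Polynomial.map_prod, Polynomial.map_sub, map_X, map_C, hπg,
    Finset.prod_const, Finset.card_univ, Fintype.card_fin, Polynomial.map_sum, Polynomial.map_mul,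
    Polynomial.map_pow] at hmap
  have hinjφ : Function.Injective fun j => (φ j : ZMod p) := by
    intro j j' h
    apply hφ
    have := (ZMod.natCast_eq_natCast_iff' _ _ _).mp h
    rwa [Nat.mod_eq_of_lt (hφp j), Nat.mod_eq_of_lt (hφp j')] at this
  have := Matrix.eq_zero_of_forall_pow_sum_mul_pow_eq_zero hinjφ
    (v := fun j => π (u j)) fun k => moments_zero φ k _ m k.2 hmap
  exact hu1 fun j => congrFun this j

/-- A vector with `m` frequencies whose Fourier transform vanishes at `m` points is zero. -/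
theorem eq_zero_of_vanish {p : ℕ} (hp : p.Prime) {ζ : ℂ} (hζ : IsPrimitiveRoot ζ p) {m : ℕ}
    (φ : Fin m → ℕ) (hφ : Function.Injective φ) (hφp : ∀ j, φ j < p) (S : Finset (Fin p))
    (hS : m ≤ S.card) (a : Fin m → ℂ) (ha : ∀ g ∈ S, ∑ j, a j * ζ ^ (g.1 * φ j) = 0) : a = 0 := by
  classical
  let g : Fin m → Fin p := fun i => S.orderEmbOfCardLe hS i
  have hg : Function.Injective fun i => (g i).1 :=
    Fin.val_injective.comp (S.orderEmbOfCardLe hS).injective
  have hd := chebotarev hp hζ φ (fun i => (g i).1) hφ hg hφp fun i => (g i).2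
  refine Matrix.eq_zero_of_mulVec_eq_zero hd ?_
  funext i
  have := ha (g i) (S.orderEmbOfCardLe_mem hS i)
  simp only [Matrix.mulVec, dotProduct, Matrix.of_apply, Pi.zero_apply]
  rw [← this]
  exact Finset.sum_congr rfl fun j _ => mul_comm _ _

end Vale.Agent.P372
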