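import Vale.Agent.P372.Bound

namespace Vale.Agent.P372

open Matrix
open scoped Kronecker MatrixOrder ComplexOrder

lemma sum_pi_prod {I : Type} [Fintype I] {n : ℕ} (f : Fin n → I → ℂ) :
    ∑ i : Fin n → I, ∏ r, f r (i r) = ∏ r, ∑ i, f r i := by
  classical
  rw [Finset.prod_univ_sum, Fintype.piFinset_univ]

lemma sum_pi_prod₂ {I J : Type} [Fintype I] [Fintype J] {n : ℕ} (f : Fin n → I → J → ℂ) :
    ∑ p : (Fin n → I) × (Fin n → J), ∏ r, f r (p.1 r) (p.2 r) =
      ∏ r, ∑ q : I × J, f r q.1 q.2 := by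
  simp only [Fintype.sum_prod_type]
  rw [← sum_pi_prod (fun r i => ∑ j, f r i j)]
  exact Finset.sum_congr rfl fun i _ => sum_pi_prod (fun r j => f r (i r) j)

theorem keyRate_krausOut {a b e : ℕ} {C D I J : Type} [Fintype C] [Fintype D] [Fintype I]
    [Fintype J] {K K' : I → Matrix (Fin a) C ℂ} {L L' : J → Matrix (Fin b) D ℂ}
    (h : CoKraus K K') (h' : CoKraus L L') (w : C × D → ℂ) (ψ : (Fin a × Fin b) × Fin e → ℂ)
    (hψ : traceRight (pureState ψ) = krausOut (fun p : I × J => K p.1 ⊗ₖ L p.2) w) :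
    keyRate ψ = 0 := by
  refine keyRate_eq_zero ψ fun n => ?_
  have := good_krausOut ((h.pi n).reindex (finFunctionFinEquiv (m := a) (n := n)).symm)
    ((h'.pi n).reindex (finFunctionFinEquiv (m := b) (n := n)).symm)
    (fun cd : (Fin n → C) × (Fin n → D) => ∏ r, w (cd.1 r, cd.2 r))
  convert this using 1
  ext x y
  have hv : ∀ (p : (Fin n → I) × (Fin n → J)) (x : Fin (a ^ n) × Fin (b ^ n)),
      (((piKraus K n p.1).submatrix (finFunctionFinEquiv (m := a) (n := n)).symm id ⊗ₖ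
        (piKraus L n p.2).submatrix (finFunctionFinEquiv (m := b) (n := n)).symm id) *ᵥ
        (fun cd : (Fin n → C) × (Fin n → D) => ∏ r, w (cd.1 r, cd.2 r))) x =
      ∏ r, ((K (p.1 r) ⊗ₖ L (p.2 r)) *ᵥ w)
        (finFunctionFinEquiv.symm x.1 r, finFunctionFinEquiv.symm x.2 r) := by
    intro p x
    simp only [mulVec, dotProduct, kroneckerMap_apply, submatrix_apply, piKraus, of_apply, id,
      ← Finset.prod_mul_distrib]
    exact sum_pi_prod₂ (fun r c d => K (p.1 r) (finFunctionFinEquiv.symm x.1 r) c *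
      L (p.2 r) (finFunctionFinEquiv.symm x.2 r) d * w (c, d))
  have e1 : traceRight (pureState (copies ψ n)) x y = ∏ r, traceRight (pureState ψ)
      (finFunctionFinEquiv.symm x.1 r, finFunctionFinEquiv.symm x.2 r)
      (finFunctionFinEquiv.symm y.1 r, finFunctionFinEquiv.symm y.2 r) := by
    simp only [traceRight, pureState, of_apply, vecMulVec_apply, copies, Pi.star_apply, star_prod,
      ← Finset.prod_mul_distrib]
    exact sum_pi_prod (fun r i =>
      ψ ((finFunctionFinEquiv.symm x.1 r, finFunctionFinEquiv.symm x.2 r), i) *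
      star (ψ ((finFunctionFinEquiv.symm y.1 r, finFunctionFinEquiv.symm y.2 r), i)))
  rw [e1, hψ]
  simp only [krausOut, Matrix.sum_apply, vecMulVec_apply, Pi.star_apply, hv, star_prod,
    ← Finset.prod_mul_distrib]
  exact (sum_pi_prod₂ (fun r i j => ((K i ⊗ₖ L j) *ᵥ w)
    (finFunctionFinEquiv.symm x.1 r, finFunctionFinEquiv.symm x.2 r) *
    star (((K i ⊗ₖ L j) *ᵥ w)
      (finFunctionFinEquiv.symm y.1 r, finFunctionFinEquiv.symm y.2 r)))).symm

lemma krausOut_psd {H G I : Type} [Finite H] [Fintype G] [Fintype I] (K : I → Matrix H G ℂ)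
    (w : G → ℂ) : (krausOut K w).PosSemidef :=
  posSemidef_sum _ fun _ _ => posSemidef_vecMulVec_self_star _

lemma krausOut_smul {H G I : Type} [Fintype G] [Fintype I] (K : I → Matrix H G ℂ)
    (w : G → ℂ) (c : ℂ) : krausOut K (c • w) = (c * star c) • krausOut K w := by
  ext x y
  simp only [krausOut, Matrix.sum_apply, vecMulVec_apply, mulVec_smul, Pi.smul_apply,
    Pi.star_apply, smul_eq_mul, Matrix.smul_apply, star_mul', Finset.mul_sum]
  exact Finset.sum_congr rfl fun i _ => by ring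

lemma exists_purification {H G I : Type} [Fintype G] [Fintype I] (K : I → Matrix H G ℂ)
    (w : G → ℂ) : ∃ (e : ℕ) (ψ : H × Fin e → ℂ), traceRight (pureState ψ) = krausOut K w := by
  refine ⟨Fintype.card I, fun x => (K ((Fintype.equivFin I).symm x.2) *ᵥ w) x.1, ?_⟩
  ext x y
  simp only [traceRight, pureState, krausOut, of_apply, vecMulVec_apply, Matrix.sum_apply,
    Pi.star_apply]
  exact Equiv.sum_comp (Fintype.equivFin I).symm (fun i => (K i *ᵥ w) x * star ((K i *ᵥ w) y))

lemma exists_state {H G I : Type} [Fintype H] [Fintype G] [Fintype I] (K : I → Matrix H G ℂ)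
    (w : G → ℂ) (i : I) (x : H) (h : (K i *ᵥ w) x ≠ 0) :
    ∃ c : ℂ, IsState (krausOut K (c • w)) := by
  have hp := krausOut_psd K w
  have hne : (krausOut K w).trace ≠ 0 := by
    intro h0
    rw [hp.trace_eq_zero_iff] at h0
    have h1 := congrFun (congrFun h0 x) x
    simp only [krausOut, Matrix.sum_apply, vecMulVec_apply, Pi.star_apply, Matrix.zero_apply] at h1
    rw [Finset.sum_eq_zero_iff_of_nonneg (fun j _ => mul_star_self_nonneg _)] at h1
    have := h1 i (Finset.mem_univ _)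
    simp [h] at this
  obtain ⟨t1, t2⟩ := Complex.nonneg_iff.mp hp.trace_nonneg
  set t := (krausOut K w).trace.re with ht
  have htc : (krausOut K w).trace = (t : ℂ) := by
    apply Complex.ext <;> simp [ht, ← t2]
  have ht0 : t ≠ 0 := by
    intro h0; apply hne; rw [htc, h0]; simp
  refine ⟨((Real.sqrt t)⁻¹ : ℝ), krausOut_psd _ _, ?_⟩
  rw [krausOut_smul, trace_smul, htc, smul_eq_mul, RCLike.star_def, Complex.conj_ofReal]
  norm_cast
  rw [← mul_inv, Real.mul_self_sqrt t1, inv_mul_cancel₀ ht0]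

lemma kron_quadratic {A B : Type} [Fintype A] [Fintype B] (α : Matrix A A ℂ) (β : Matrix B B ℂ)
    (u : A → ℂ) (v : B → ℂ) :
    star (fun x : A × B => u x.1 * v x.2) ⬝ᵥ (α ⊗ₖ β) *ᵥ (fun x : A × B => u x.1 * v x.2) =
      (star u ⬝ᵥ α *ᵥ u) * (star v ⬝ᵥ β *ᵥ v) := by
  simp only [dotProduct, mulVec, Fintype.sum_prod_type, kroneckerMap_apply, Pi.star_apply,
    star_mul']
  rw [Finset.sum_mul_sum]
  refine Finset.sum_congr rfl fun a _ => Finset.sum_congr rfl fun b _ => ?_
  rw [mul_mul_mul_comm, Finset.sum_mul_sum]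
  congr 1
  refine Finset.sum_congr rfl fun a' _ => Finset.sum_congr rfl fun b' _ => ?_
  ring

/-- A separable state killed by product vectors gives product states killed by them. -/
lemma separable_kernel {A B S : Type} [Fintype A] [Fintype B] {ρ : Matrix (A × B) (A × B) ℂ}
    (hρ : IsSeparable ρ) (u : S → A → ℂ) (v : S → B → ℂ)
    (h : ∀ s, star (fun x : A × B => u s x.1 * v s x.2) ⬝ᵥ ρ *ᵥ
      (fun x : A × B => u s x.1 * v s x.2) = 0) :
    ∃ (α : Matrix A A ℂ) (β : Matrix B B ℂ), α ≠ 0 ∧ β ≠ 0 ∧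
      ∀ s, α *ᵥ u s = 0 ∨ β *ᵥ v s = 0 := by
  obtain ⟨m, p, α, β, hp, hp1, hα, hβ, rfl⟩ := hρ
  obtain ⟨i, hi⟩ : ∃ i, p i ≠ 0 := by
    by_contra hcon
    push Not at hcon
    simp [hcon] at hp1
  refine ⟨α i, β i, ?_, ?_, fun s => ?_⟩
  · intro h0; have := (hα i).2; rw [h0] at this; simp at this
  · intro h0; have := (hβ i).2; rw [h0] at this; simp at this
  · have h1 := h s
    simp only [Matrix.sum_mulVec, dotProduct_sum, smul_mulVec, dotProduct_smul, kron_quadratic,
      smul_eq_mul] at h1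
    rw [Finset.sum_eq_zero_iff_of_nonneg (fun j _ => mul_nonneg (by exact_mod_cast hp j)
      (mul_nonneg ((hα j).1.dotProduct_mulVec_nonneg _) ((hβ j).1.dotProduct_mulVec_nonneg _)))]
      at h1
    have h2 := h1 i (Finset.mem_univ _)
    rw [mul_eq_zero, mul_eq_zero] at h2
    rcases h2 with h2 | h2 | h2
    · exact absurd (by exact_mod_cast h2) hi
    · exact Or.inl (((hα i).1.dotProduct_mulVec_zero_iff _).mp h2)
    · exact Or.inr (((hβ i).1.dotProduct_mulVec_zero_iff _).mp h2)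

end Vale.Agent.P372
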