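import Vale.Agent.P372.Copies
import Vale.Agent.P372.Cheb

namespace Vale.Agent.P372

open Matrix
open scoped Kronecker MatrixOrder ComplexOrder

/-! A plane multigraph with four vertices, eight faces and ten edges. Each edge has a left face,
a right face, a tail and a head. Its sandpile group is cyclic of order 59. -/

def lf : Fin 10 → Fin 8 := ![4, 7, 6, 5, 0, 2, 4, 3, 1, 0]
def rf : Fin 10 → Fin 8 := ![7, 6, 5, 4, 2, 4, 3, 1, 0, 7]
def tl : Fin 10 → Fin 4 := ![0, 0, 0, 0, 1, 1, 1, 1, 1, 2]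
def hd : Fin 10 → Fin 4 := ![2, 3, 3, 3, 2, 2, 3, 3, 3, 3]
def al : Fin 8 → ℕ := ![0, 2, 3, 4, 6, 22, 38, 54]
def be : Fin 4 → ℕ := ![0, 14, 11, 16]
def ph : Fin 29 → ℕ := ![0, 1, 2, 3, 4, 5, 6, 7, 8, 9, 10, 12, 17, 22, 24, 25, 26, 28, 33, 38, 40,
  41, 42, 44, 49, 54, 56, 57, 58]
def idx : Fin 8 → Fin 8 → Fin 29 :=
  ![![0, 2, 3, 4, 6, 13, 19, 25], ![2, 4, 5, 6, 8, 14, 20, 26], ![3, 5, 6, 7, 9, 15, 21, 27],
    ![4, 6, 7, 8, 10, 16, 22, 28], ![6, 8, 9, 10, 11, 17, 23, 1], ![13, 14, 15, 16, 17, 23, 1, 12],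
    ![19, 20, 21, 22, 23, 1, 12, 18], ![25, 26, 27, 28, 1, 12, 18, 24]]

def tz (e : Fin 10) (j : Fin 8) (b : Fin 4) : ℤ :=
  (if j = lf e ∧ b = tl e then 1 else 0) - (if j = rf e ∧ b = hd e then 1 else 0)
def tz' (e : Fin 10) (j : Fin 8) (b : Fin 4) : ℤ :=
  (if j = lf e ∧ b = hd e then 1 else 0) - (if j = rf e ∧ b = tl e then 1 else 0)
def vz (f : Fin 29) (j : Fin 2 → Fin 8) : ℤ := if f = idx (j 0) (j 1) then 1 else 0
def wz (c d : Fin 2 → Fin 4) : ℤ :=
  (Matrix.of fun (r : Fin (2 + 2)) (b : Fin 4) => if Fin.append c d r = b then (1 : ℤ) else 0).det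

lemma tz_ppt : ∀ a c a' c', ∑ e, tz e a c * tz e a' c' = ∑ e, tz' e a c' * tz' e a' c := by
  decide +kernel

lemma ph_idx : ∀ j j', ph (idx j j') = (al j + al j') % 59 := by decide +kernel

lemma edge_weight : ∀ e, (al (lf e) + be (tl e)) % 59 = (al (rf e) + be (hd e)) % 59 := by
  decide +kernel

lemma ph_inj : Function.Injective ph := by decide +kernel

lemma ph_lt : ∀ j, ph j < 59 := by decide +kernel

lemma kz1 : ∀ c : Fin 2 → Fin 4, ∑ j : Fin 2 → Fin 8, vz 23 j * ∏ r, tz (![0, 1] r) (j r) (c r) =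
    if c = ![0, 3] then -1 else 0 := by decide +kernel

lemma kz2 : ∀ c : Fin 2 → Fin 4, ∑ j : Fin 2 → Fin 8, vz 25 j * ∏ r, tz (![0, 4] r) (j r) (c r) =
    if c = ![2, 1] then -1 else 0 := by decide +kernel

lemma wz_ne : wz ![0, 3] ![2, 1] ≠ 0 := by decide +kernel

noncomputable def TT (e : Fin 10) : Matrix (Fin 8) (Fin 4) ℂ := Matrix.of fun j b => (tz e j b : ℂ)
noncomputable def TT' (e : Fin 10) : Matrix (Fin 8) (Fin 4) ℂ :=
  Matrix.of fun j b => (tz' e j b : ℂ)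
noncomputable def VV : Matrix (Fin 29) (Fin 2 → Fin 8) ℂ := Matrix.of fun f j => (vz f j : ℂ)
noncomputable def KK (e : Fin 2 → Fin 10) : Matrix (Fin 29) (Fin 2 → Fin 4) ℂ :=
  VV * piKraus TT 2 e
noncomputable def KK' (e : Fin 2 → Fin 10) : Matrix (Fin 29) (Fin 2 → Fin 4) ℂ :=
  VV * piKraus TT' 2 e
noncomputable def ww (cd : (Fin 2 → Fin 4) × (Fin 2 → Fin 4)) : ℂ := (wz cd.1 cd.2 : ℂ)

lemma TT_co : CoKraus TT TT' := by
  intro a c a' c'
  simp only [TT, TT', of_apply, star_intCast]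
  exact_mod_cast tz_ppt a c a' c'

lemma KK_co : CoKraus KK KK' := (TT_co.pi 2).mul_left VV

lemma KK_ne : ((KK ![0, 1] ⊗ₖ KK ![0, 4]) *ᵥ ww) (23, 25) ≠ 0 := by
  have h1 : ∀ c, KK ![0, 1] 23 c = if c = ![0, 3] then -1 else 0 := by
    intro c
    simp only [KK, VV, TT, piKraus, Matrix.mul_apply, of_apply]
    exact_mod_cast kz1 c
  have h2 : ∀ c, KK ![0, 4] 25 c = if c = ![2, 1] then -1 else 0 := by
    intro c
    simp only [KK, VV, TT, piKraus, Matrix.mul_apply, of_apply]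
    exact_mod_cast kz2 c
  simp only [mulVec, dotProduct, kroneckerMap_apply, h1, h2, Fintype.sum_prod_type, ite_mul,
    mul_ite, zero_mul, mul_zero, Finset.sum_ite_eq', Finset.mem_univ, if_true, ww]
  simpa using wz_ne

lemma sum_det (N : Matrix (Fin (2 + 2)) (Fin 4) ℂ) :
    ∑ b : Fin (2 + 2) → Fin 4, (∏ r, N r (b r)) *
      (Matrix.of fun (r : Fin (2 + 2)) (c : Fin 4) => if b r = c then (1 : ℂ) else 0).det =
      N.det := by
  have h : N = fun r => ∑ b, N r b • (fun c => if b = c then (1 : ℂ) else 0) := by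
    ext r c
    simp [Finset.sum_apply]
  conv_rhs => rw [h]
  have := (detRowAlternating (n := Fin (2 + 2)) (R := ℂ)).toMultilinearMap.map_sum
    (fun r b => N r b • (fun c => if b = c then (1 : ℂ) else 0))
  refine Eq.trans ?_ this.symm
  refine Finset.sum_congr rfl fun b _ => ?_
  rw [MultilinearMap.map_smul_univ]
  rfl

lemma vecMul_KK {ξ : ℂ} (hξ : ξ ^ 59 = 1) (e : Fin 2 → Fin 10) (c : Fin 2 → Fin 4) :
    ∑ f, ξ ^ ph f * KK e f c = ∏ r, ∑ j, ξ ^ al j * TT (e r) j (c r) := by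
  rw [← sum_pi_prod (fun r j => ξ ^ al j * TT (e r) j (c r))]
  simp only [KK, Matrix.mul_apply, Finset.mul_sum]
  rw [Finset.sum_comm]
  refine Finset.sum_congr rfl fun j _ => ?_
  simp only [VV, vz, of_apply, Int.cast_ite, Int.cast_one, Int.cast_zero, ite_mul, one_mul,
    zero_mul, mul_ite, mul_zero, Finset.sum_ite_eq', Finset.mem_univ, if_true, piKraus,
    Finset.prod_mul_distrib, ph_idx]
  rw [← pow_eq_pow_mod _ hξ, Fin.prod_univ_two (fun r => ξ ^ al (j r)), pow_add]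

lemma row_kernel {ξ : ℂ} (hξ : ξ ^ 59 = 1) (e : Fin 10) :
    ∑ b, (∑ j, ξ ^ al j * TT e j b) * ξ ^ be b = 0 := by
  simp only [TT, tz, of_apply, Int.cast_sub, Int.cast_ite, Int.cast_one, Int.cast_zero, mul_sub,
    mul_ite, mul_one, mul_zero, Finset.sum_sub_distrib, ite_and, Finset.sum_ite_eq',
    Finset.mem_univ, if_true, sub_mul, ite_mul, zero_mul]
  rw [← pow_add, ← pow_add, pow_eq_pow_mod _ hξ, edge_weight, ← pow_eq_pow_mod _ hξ, sub_self]

lemma kernel_identity {ξ : ℂ} (hξ : ξ ^ 59 = 1) (e e' : Fin 2 → Fin 10) :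
    (fun x : Fin 29 × Fin 29 => ξ ^ ph x.1 * ξ ^ ph x.2) ⬝ᵥ ((KK e ⊗ₖ KK e') *ᵥ ww) = 0 := by
  have hξ0 : ξ ≠ 0 := by rintro rfl; simp at hξ
  let N : Matrix (Fin (2 + 2)) (Fin 4) ℂ :=
    Matrix.of fun r b => ∑ j, ξ ^ al j * TT (Fin.append e e' r) j b
  have hN : N.det = 0 := by
    refine Matrix.exists_mulVec_eq_zero_iff.mp ⟨fun b => ξ ^ be b, ?_, ?_⟩
    · intro h; exact pow_ne_zero _ hξ0 (congrFun h 0)
    · funext r
      exact row_kernel hξ _
  rw [← hN, ← sum_det, dotProduct_mulVec, ← Equiv.sum_comp (Fin.appendEquiv 2 2)]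
  refine Finset.sum_congr rfl fun cd _ => ?_
  have happ : Fin.appendEquiv 2 2 cd = Fin.append cd.1 cd.2 := rfl
  rw [happ]
  congr 1
  · simp only [vecMul, dotProduct, kroneckerMap_apply, Fintype.sum_prod_type]
    have : ∀ f f', ξ ^ ph f * ξ ^ ph f' * (KK e f cd.1 * KK e' f' cd.2) =
        (ξ ^ ph f * KK e f cd.1) * (ξ ^ ph f' * KK e' f' cd.2) := fun _ _ => by ring
    simp only [this]
    rw [← Finset.sum_mul_sum, vecMul_KK hξ, vecMul_KK hξ, Fin.prod_univ_add]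
    simp only [N, of_apply, Fin.append_left, Fin.append_right]
  · simp only [ww, wz, Int.cast_det]
    congr 1
    ext r b
    simp

theorem not_separable (c : ℂ) :
    ¬ IsSeparable (krausOut (fun p : (Fin 2 → Fin 10) × (Fin 2 → Fin 10) => KK p.1 ⊗ₖ KK p.2)
      (c • ww)) := by
  classical
  intro h
  have hp : Nat.Prime 59 := by norm_num
  have hζ := Complex.isPrimitiveRoot_exp 59 (by norm_num)
  set ζ := Complex.exp (2 * Real.pi * Complex.I / (59 : ℕ)) with hζdef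
  obtain ⟨α, β, hα, hβ, hs⟩ := separable_kernel h (fun (g : Fin 59) f => ζ ^ (g.1 * ph f))
    (fun (g : Fin 59) f => ζ ^ (g.1 * ph f)) (by
      intro g
      have hξ : (star ζ ^ g.1) ^ 59 = 1 := by
        rw [← pow_mul, mul_comm, pow_mul, ← star_pow, hζ.pow_eq_one, star_one, one_pow]
      rw [krausOut_smul, smul_mulVec, dotProduct_smul, krausOut, Matrix.sum_mulVec, dotProduct_sum,
        Finset.sum_eq_zero, smul_zero]
      intro p _
      have := kernel_identity hξ p.1 p.2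
      rw [vecMulVec_mulVec, dotProduct_smul]
      have e : (star fun x : Fin 29 × Fin 29 => ζ ^ (g.1 * ph x.1) * ζ ^ (g.1 * ph x.2)) =
          fun x : Fin 29 × Fin 29 => (star ζ ^ g.1) ^ ph x.1 * (star ζ ^ g.1) ^ ph x.2 := by
        funext x
        simp only [Pi.star_apply, star_mul', star_pow, pow_mul]
      rw [e, this, smul_zero])
  have key : ∀ γ : Matrix (Fin 29) (Fin 29) ℂ, γ ≠ 0 →
      (Finset.univ.filter fun g : Fin 59 => γ *ᵥ (fun f => ζ ^ (g.1 * ph f)) = 0).card < 29 := by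
    intro γ hγ
    by_contra hcon
    apply hγ
    ext i j
    have := eq_zero_of_vanish hp hζ ph ph_inj ph_lt _ (not_lt.mp hcon) (γ i) (fun g hg =>
      congrFun (Finset.mem_filter.mp hg).2 i)
    exact congrFun this j
  have h1 := key α hα
  have h2 := key β hβ
  have h3 : (Finset.univ : Finset (Fin 59)) ⊆
      (Finset.univ.filter fun g : Fin 59 => α *ᵥ (fun f => ζ ^ (g.1 * ph f)) = 0) ∪
      (Finset.univ.filter fun g : Fin 59 => β *ᵥ (fun f => ζ ^ (g.1 * ph f)) = 0) := by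
    intro g _
    simpa using hs g
  have h4 := (Finset.card_le_card h3).trans (Finset.card_union_le _ _)
  rw [Finset.card_univ, Fintype.card_fin] at h4
  omega

theorem main : ∃ (a b : ℕ) (ρ : Matrix (Fin a × Fin b) (Fin a × Fin b) ℂ),
    IsState ρ ∧ ¬ IsSeparable ρ ∧
    (∃ (e : ℕ) (ψ : (Fin a × Fin b) × Fin e → ℂ), traceRight (pureState ψ) = ρ) ∧
    ∀ (e : ℕ) (ψ : (Fin a × Fin b) × Fin e → ℂ), traceRight (pureState ψ) = ρ →
      keyRate ψ = 0 := by
  obtain ⟨c, hc⟩ := exists_state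
    (fun p : (Fin 2 → Fin 10) × (Fin 2 → Fin 10) => KK p.1 ⊗ₖ KK p.2) ww (![0, 1], ![0, 4])
    (23, 25) KK_ne
  exact ⟨29, 29, _, hc, not_separable c, exists_purification _ _,
    fun e ψ hψ => keyRate_krausOut KK_co KK_co _ ψ hψ⟩

end Vale.Agent.P372
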