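import Mathlib

namespace Vale.Agent.P372

open Matrix
open scoped Kronecker MatrixOrder ComplexOrder

variable {n m : Type} [Fintype n] [DecidableEq n] [Fintype m] [DecidableEq m]

omit [DecidableEq n] in
lemma trace_mul_re_nonneg {A B : Matrix n n ℂ} (hA : A.PosSemidef) (hB : B.PosSemidef) :
    0 ≤ (A * B).trace.re := by
  classical
  obtain ⟨C, rfl⟩ := CStarAlgebra.nonneg_iff_eq_star_mul_self.mp hA.nonneg
  have h : (star C * C * B).trace = (C * B * Cᴴ).trace := by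
    rw [star_eq_conjTranspose, Matrix.mul_assoc, trace_mul_comm]
  rw [h]
  exact (Complex.nonneg_iff.mp (hB.mul_mul_conjTranspose_same C).trace_nonneg).1

lemma contOn (f : ℝ → ℝ) (S : Matrix n n ℂ) : ContinuousOn f (spectrum ℝ S) :=
  (Matrix.finite_real_spectrum (A := S)).continuousOn f

lemma cfc_mul' (f g : ℝ → ℝ) (S : Matrix n n ℂ) :
    cfc f S * cfc g S = cfc (fun x => f x * g x) S :=
  (cfc_mul f g S (contOn f S) (contOn g S)).symm

lemma cfc_add' (f g : ℝ → ℝ) (S : Matrix n n ℂ) :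
    cfc f S + cfc g S = cfc (fun x => f x + g x) S :=
  (cfc_add (a := S) f g (contOn f S) (contOn g S)).symm

lemma cfc_sub' (f g : ℝ → ℝ) (S : Matrix n n ℂ) :
    cfc f S - cfc g S = cfc (fun x => f x - g x) S :=
  (cfc_sub f g S (contOn f S) (contOn g S)).symm

lemma cfc_psd (f : ℝ → ℝ) (S : Matrix n n ℂ) (hf : ∀ x, 0 ≤ f x) : (cfc f S).PosSemidef :=
  (cfc_nonneg (fun x _ => hf x)).posSemidef

lemma cfc_herm (f : ℝ → ℝ) (S : Matrix n n ℂ) : (cfc f S).IsHermitian :=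
  (cfc_predicate f S : IsSelfAdjoint (cfc f S))

lemma cfc_id'' {S : Matrix n n ℂ} (hS : S.IsHermitian) : cfc (fun x : ℝ => x) S = S :=
  cfc_id' ℝ S hS.isSelfAdjoint

lemma cfc_one'' {S : Matrix n n ℂ} (hS : S.IsHermitian) : cfc (fun _ : ℝ => (1 : ℝ)) S = 1 :=
  cfc_const_one ℝ S hS.isSelfAdjoint

/-- If `Y² ≤ R²` with `R ≥ 0` then `Y ≤ R`. -/
lemma psd_sub_of_sq {Y R : Matrix n n ℂ} (hY : Y.IsHermitian) (hR : R.PosSemidef)
    (h : (R * R - Y * Y).PosSemidef) : (R - Y).PosSemidef := by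
  have hH : (R - Y).IsHermitian := hR.1.sub hY
  rw [hH.posSemidef_iff_eigenvalues_nonneg]
  intro i
  by_contra hneg
  simp only [Pi.zero_apply, not_le] at hneg
  set l : ℝ := hH.eigenvalues i with hl
  set v : n → ℂ := (hH.eigenvectorBasis i).ofLp with hv
  have hev : (R - Y) *ᵥ v = (l : ℂ) • v := by
    have := hH.mulVec_eigenvectorBasis i
    rw [this]; ext j; simp [hl, hv]
  have hv0 : v ≠ 0 := by
    intro h0
    have := (hH.eigenvectorBasis.orthonormal.ne_zero i)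
    apply this
    ext j
    exact congrFun h0 j
  have hYv : Y *ᵥ v = R *ᵥ v - (l : ℂ) • v := by
    rw [← hev, sub_mulVec]; abel
  have h1 := h.dotProduct_mulVec_nonneg v
  have h2 := hR.dotProduct_mulVec_nonneg v
  have h3 : 0 < star v ⬝ᵥ v := dotProduct_star_self_pos_iff.mpr hv0
  have e1 : star v ⬝ᵥ ((Y * Y) *ᵥ v) = star (Y *ᵥ v) ⬝ᵥ (Y *ᵥ v) := by
    rw [← mulVec_mulVec, dotProduct_mulVec, star_mulVec, hY.eq]
  have e2 : star v ⬝ᵥ ((R * R) *ᵥ v) = star (R *ᵥ v) ⬝ᵥ (R *ᵥ v) := by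
    rw [← mulVec_mulVec, dotProduct_mulVec, star_mulVec, hR.1.eq]
  have e3 : star (R *ᵥ v) ⬝ᵥ v = star v ⬝ᵥ (R *ᵥ v) := by
    rw [star_mulVec, hR.1.eq, dotProduct_mulVec]
  rw [sub_mulVec, dotProduct_sub, e1, e2, hYv] at h1
  simp only [star_sub, star_smul, sub_dotProduct, dotProduct_sub, smul_dotProduct,
    dotProduct_smul, e3, smul_eq_mul, RCLike.star_def, Complex.conj_ofReal] at h1
  set p := star v ⬝ᵥ (R *ᵥ v) with hp
  set q := star v ⬝ᵥ v with hq
  have h1' : (0 : ℂ) ≤ 2 * l * p - l * l * q := by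
    convert h1 using 1; ring
  obtain ⟨p1, p2⟩ := Complex.nonneg_iff.mp h2
  obtain ⟨q1, q2⟩ := Complex.pos_iff.mp h3
  have h4 := (Complex.nonneg_iff.mp h1').1
  simp at h4
  have : 0 < l * l * q.re := mul_pos (mul_pos_of_neg_of_neg hneg hneg) q1
  nlinarith


omit [DecidableEq n] in
lemma schur_sq {Q Y : Matrix n n ℂ} [DecidableEq n] (hY : Y.IsHermitian)
    (h : (fromBlocks 1 Y Y Q).PosSemidef) : (Q - Y * Y).PosSemidef := by
  have := h.conjTranspose_mul_mul_same (fromRows (-Y) (1 : Matrix n n ℂ))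
  rw [conjTranspose_fromRows_eq_fromCols_conjTranspose, Matrix.mul_assoc,
    fromBlocks_mul_fromRows, fromCols_mul_fromRows] at this
  convert this using 1
  simp [hY.eq, Matrix.mul_add]
  abel

lemma exists_normalizer {M : Matrix n n ℂ} (hM : M.PosDef) :
    ∃ G : Matrix n n ℂ, IsUnit G ∧ Gᴴ * M * G = 1 := by
  obtain ⟨y, hy, rfl⟩ := CStarAlgebra.isStrictlyPositive_iff_eq_star_mul_self.mp
    hM.isStrictlyPositive
  have hd : IsUnit y.det := (isUnit_iff_isUnit_det y).mp hy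
  refine ⟨y⁻¹, (isUnit_nonsing_inv_iff).mpr hy, ?_⟩
  rw [star_eq_conjTranspose]
  calc y⁻¹ᴴ * (yᴴ * y) * y⁻¹ = (y * y⁻¹)ᴴ * (y * y⁻¹) := by
        rw [conjTranspose_mul]; simp only [Matrix.mul_assoc]
    _ = 1 := by rw [mul_nonsing_inv y hd]; simp

lemma swap_posDef {M0 M1 : Matrix n n ℂ} {N0 N1 : Matrix m m ℂ} {X : Matrix (n × m) (n × m) ℂ}
    (hM0 : M0.PosDef) (hN0 : N0.PosDef) (hM1 : M1.PosSemidef) (hN1 : N1.PosSemidef)
    (hX : X.IsHermitian) (h : (fromBlocks (M0 ⊗ₖ N0) X X (M1 ⊗ₖ N1)).PosSemidef) :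
    (M0 ⊗ₖ N1 + M1 ⊗ₖ N0 - (2 : ℂ) • X).PosSemidef := by
  obtain ⟨G, hG, hGM⟩ := exists_normalizer hM0
  obtain ⟨H, hH, hHN⟩ := exists_normalizer hN0
  set W : Matrix (n × m) (n × m) ℂ := G ⊗ₖ H with hW
  have hWu : IsUnit W := hG.kronecker hH
  have conj : ∀ (A : Matrix n n ℂ) (B : Matrix m m ℂ),
      Wᴴ * (A ⊗ₖ B) * W = (Gᴴ * A * G) ⊗ₖ (Hᴴ * B * H) := by
    intro A B
    rw [hW, conjTranspose_kronecker, ← mul_kronecker_mul, ← mul_kronecker_mul]
  set A := Gᴴ * M1 * G with hA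
  set B := Hᴴ * N1 * H with hB
  have hAp : A.PosSemidef := hM1.conjTranspose_mul_mul_same G
  have hBp : B.PosSemidef := hN1.conjTranspose_mul_mul_same H
  set Y := Wᴴ * X * W with hYdef
  have hY : Y.IsHermitian := isHermitian_conjTranspose_mul_mul W hX
  have hb : (fromBlocks 1 Y Y (A ⊗ₖ B)).PosSemidef := by
    have := h.conjTranspose_mul_mul_same (fromBlocks W 0 0 W)
    rw [fromBlocks_conjTranspose, fromBlocks_multiply, fromBlocks_multiply] at this
    simpa [conj, hGM, hHN] using this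
  have hs := schur_sq hY hb
  set A' : Matrix (n × m) (n × m) ℂ := A ⊗ₖ (1 : Matrix m m ℂ) with hA'
  set B' : Matrix (n × m) (n × m) ℂ := (1 : Matrix n n ℂ) ⊗ₖ B with hB'
  have hA'p : A'.PosSemidef := hAp.kronecker PosSemidef.one
  have hB'p : B'.PosSemidef := PosSemidef.one.kronecker hBp
  have hAB : A' * B' = A ⊗ₖ B := by rw [hA', hB', ← mul_kronecker_mul]; simp
  have hBA : B' * A' = A ⊗ₖ B := by rw [hA', hB', ← mul_kronecker_mul]; simp
  have hR : (A' + B').PosSemidef := hA'p.add hB'p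
  have hD : ((A' - B') * (A' - B')).PosSemidef := by
    have := posSemidef_conjTranspose_mul_self (A' - B')
    rwa [(hA'p.1.sub hB'p.1).eq] at this
  have h2Y : ((2 : ℂ) • Y).IsHermitian := by
    rw [IsHermitian, conjTranspose_smul, hY.eq]; simp
  have hsq : ((A' + B') * (A' + B') - ((2 : ℂ) • Y) * ((2 : ℂ) • Y)).PosSemidef := by
    have h4 : ((4 : ℂ) • (A ⊗ₖ B - Y * Y)).PosSemidef := hs.smul (by norm_num)
    convert hD.add h4 using 1
    simp only [Matrix.mul_add, Matrix.add_mul, Matrix.mul_sub, Matrix.sub_mul, hAB, hBA,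
      Matrix.smul_mul, Matrix.mul_smul, smul_sub, smul_smul]
    module
  have key := psd_sub_of_sq h2Y hR hsq
  rw [← hWu.posSemidef_star_left_conjugate_iff, star_eq_conjTranspose]
  convert key using 1
  rw [Matrix.mul_sub, Matrix.sub_mul, Matrix.mul_add, Matrix.add_mul, conj, conj, hGM, hHN,
    Matrix.mul_smul, Matrix.smul_mul]
  abel

lemma swap_re {M0 M1 : Matrix n n ℂ} {N0 N1 : Matrix m m ℂ} {X : Matrix (n × m) (n × m) ℂ}
    (hM0 : M0.PosSemidef) (hN0 : N0.PosSemidef) (hM1 : M1.PosSemidef) (hN1 : N1.PosSemidef)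
    (hX : X.IsHermitian) (h : (fromBlocks (M0 ⊗ₖ N0) X X (M1 ⊗ₖ N1)).PosSemidef)
    (w : n × m → ℂ) :
    2 * (star w ⬝ᵥ X *ᵥ w).re ≤
      (star w ⬝ᵥ (M0 ⊗ₖ N1) *ᵥ w).re + (star w ⬝ᵥ (M1 ⊗ₖ N0) *ᵥ w).re := by
  set c : ℝ := (star w ⬝ᵥ ((1 : Matrix n n ℂ) ⊗ₖ N1) *ᵥ w).re +
    (star w ⬝ᵥ (M1 ⊗ₖ (1 : Matrix m m ℂ)) *ᵥ w).re with hc
  have main : ∀ δ : ℝ, 0 < δ → 2 * (star w ⬝ᵥ X *ᵥ w).re ≤
      (star w ⬝ᵥ (M0 ⊗ₖ N1) *ᵥ w).re + (star w ⬝ᵥ (M1 ⊗ₖ N0) *ᵥ w).re + δ * c := by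
    intro δ hδ
    have hδ' : (0 : ℂ) < δ := by exact_mod_cast hδ
    have h1 : ((δ : ℂ) • (1 : Matrix n n ℂ)).PosDef := PosDef.one.smul hδ'
    have h2 : ((δ : ℂ) • (1 : Matrix m m ℂ)).PosDef := PosDef.one.smul hδ'
    have hM0' : (M0 + (δ : ℂ) • 1).PosDef := PosDef.posSemidef_add hM0 h1
    have hN0' : (N0 + (δ : ℂ) • 1).PosDef := PosDef.posSemidef_add hN0 h2
    have hE : (M0 ⊗ₖ ((δ : ℂ) • (1 : Matrix m m ℂ)) +
        ((δ : ℂ) • (1 : Matrix n n ℂ)) ⊗ₖ (N0 + (δ : ℂ) • 1)).PosSemidef :=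
      (hM0.kronecker h2.posSemidef).add (h1.posSemidef.kronecker hN0'.posSemidef)
    have hE' := hE.mul_mul_conjTranspose_same
      (fromRows (1 : Matrix (n × m) (n × m) ℂ) (0 : Matrix (n × m) (n × m) ℂ))
    rw [conjTranspose_fromRows_eq_fromCols_conjTranspose, fromRows_mul,
      fromRows_mul_fromCols] at hE'
    have hb : (fromBlocks ((M0 + (δ : ℂ) • 1) ⊗ₖ (N0 + (δ : ℂ) • 1)) X X
        (M1 ⊗ₖ N1)).PosSemidef := by
      convert h.add hE' using 1
      rw [fromBlocks_add]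
      simp only [Matrix.one_mul, Matrix.zero_mul, conjTranspose_one, conjTranspose_zero,
        Matrix.mul_one, Matrix.mul_zero, add_zero]
      congr 1
      rw [add_kronecker, kronecker_add]
      abel
    have := (swap_posDef hM0' hN0' hM1 hN1 hX hb).dotProduct_mulVec_nonneg w
    have := (Complex.nonneg_iff.mp this).1
    simp only [add_kronecker, kronecker_add, smul_kronecker, kronecker_smul, sub_mulVec,
      add_mulVec, smul_mulVec, dotProduct_sub, dotProduct_add, dotProduct_smul, smul_eq_mul,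
      Complex.sub_re, Complex.add_re, Complex.re_ofReal_mul] at this
    have e : ((2 : ℂ) * (star w ⬝ᵥ X *ᵥ w)).re = 2 * (star w ⬝ᵥ X *ᵥ w).re := by simp
    rw [e] at this
    rw [hc]
    linarith
  apply le_of_forall_pos_le_add
  intro ε hε
  have hpos : 0 < |c| + 1 := by positivity
  have := main (ε / (|c| + 1)) (by positivity)
  have h2 : ε / (|c| + 1) * c ≤ ε := by
    rw [div_mul_eq_mul_div, div_le_iff₀ hpos]
    nlinarith [le_abs_self c]
  linarith

/-- A Hermitian contraction. -/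
def IsContr (O : Matrix n n ℂ) : Prop := (1 - O).PosSemidef ∧ (1 + O).PosSemidef

/-- The Powers-Stormer inequality with an explicit test operator. -/
lemma powers_stormer {a b : Matrix n n ℂ} (ha : a.PosSemidef) (hb : b.PosSemidef) :
    ∃ O : Matrix n n ℂ, IsContr O ∧
      (a * a).trace.re + (b * b).trace.re - 2 * (b * a).trace.re ≤
        (O * (a * a - b * b)).trace.re := by
  set S := a - b with hSdef
  have hS : S.IsHermitian := ha.1.sub hb.1
  let s : ℝ → ℝ := fun x => if 0 ≤ x then 1 else -1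
  let p : ℝ → ℝ := fun x => max x 0
  let q : ℝ → ℝ := fun x => max (-x) 0
  have hp : (cfc p S).PosSemidef := cfc_psd p S fun x => le_max_right _ _
  have hq : (cfc q S).PosSemidef := cfc_psd q S fun x => le_max_right _ _
  have hpq : cfc p S - cfc q S = S := by
    rw [cfc_sub']
    conv_rhs => rw [← cfc_id'' hS]
    congr 1; funext x
    simp only [p, q]
    rcases le_total 0 x with h | h
    · rw [max_eq_left h, max_eq_right (by linarith)]; ring
    · rw [max_eq_right h, max_eq_left (by linarith)]; ring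
  have hsx : (fun x => s x * x) = fun x => p x + q x := by
    funext x
    simp only [s, p, q]
    split_ifs with h
    · rw [max_eq_left h, max_eq_right (by linarith)]; ring
    · rw [max_eq_right (by linarith), max_eq_left (by linarith)]; ring
  have hOS : cfc s S * S = cfc p S + cfc q S := by
    conv_lhs => arg 2; rw [← cfc_id'' hS]
    rw [cfc_mul', cfc_add', hsx]
  have hSO : S * cfc s S = cfc p S + cfc q S := by
    conv_lhs => arg 1; rw [← cfc_id'' hS]
    rw [cfc_mul', cfc_add', ← hsx]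
    congr 1; funext x; ring
  refine ⟨cfc s S, ⟨?_, ?_⟩, ?_⟩
  · rw [← cfc_one'' hS, cfc_sub']
    refine cfc_psd _ _ fun x => ?_
    simp only [s]; split_ifs <;> norm_num
  · rw [← cfc_one'' hS, cfc_add']
    refine cfc_psd _ _ fun x => ?_
    simp only [s]; split_ifs <;> norm_num
  · have e1 : a * a - b * b = S * a + b * S := by
      rw [hSdef, Matrix.sub_mul, Matrix.mul_sub]; abel
    have e2 : (cfc s S * (a * a - b * b)).trace =
        ((cfc p S + cfc q S) * a).trace + ((cfc p S + cfc q S) * b).trace := by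
      rw [e1, Matrix.mul_add, trace_add, ← Matrix.mul_assoc, hOS, ← Matrix.mul_assoc,
        trace_mul_comm _ S, ← Matrix.mul_assoc, hSO]
    have e3 : (a * a).trace + (b * b).trace - 2 * (b * a).trace =
        ((cfc p S - cfc q S) * (a - b)).trace := by
      rw [hpq, hSdef, Matrix.sub_mul, Matrix.mul_sub, Matrix.mul_sub, trace_sub, trace_sub,
        trace_sub, trace_mul_comm a b]
      ring
    have e3' := congrArg Complex.re e3
    simp only [Complex.sub_re, Complex.add_re, Matrix.sub_mul, Matrix.mul_sub, trace_sub] at e3'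
    have e4 : ((2 : ℂ) * (b * a).trace).re = 2 * (b * a).trace.re := by simp
    rw [e4] at e3'
    rw [e3', e2]
    simp only [Complex.add_re, Matrix.add_mul, trace_add]
    have := trace_mul_re_nonneg hp hb
    have := trace_mul_re_nonneg hq ha
    linarith

lemma exists_pinv_sqrt {E : Matrix m m ℂ} (hE : E.PosSemidef) :
    ∃ Y a : Matrix m m ℂ, Y.IsHermitian ∧ a.PosSemidef ∧ a * a = E ∧ E * Y = a ∧ Y * E = a ∧
      Y * Y * E * (Y * Y) = Y * Y := by
  have hid := cfc_id'' hE.1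
  have hsp : ∀ x ∈ spectrum ℝ E, 0 ≤ x := fun x hx => spectrum_nonneg_of_nonneg hE.nonneg hx
  refine ⟨cfc (fun x => (Real.sqrt x)⁻¹) E, cfc Real.sqrt E, cfc_herm _ _,
    cfc_psd _ _ Real.sqrt_nonneg, ?_, ?_, ?_, ?_⟩
  · rw [cfc_mul']
    conv_rhs => rw [← hid]
    exact cfc_congr fun x hx => Real.mul_self_sqrt (hsp x hx)
  · conv_lhs => arg 1; rw [← hid]
    rw [cfc_mul']
    refine cfc_congr fun x hx => ?_
    rw [← div_eq_mul_inv, Real.div_sqrt]
  · conv_lhs => arg 2; rw [← hid]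
    rw [cfc_mul']
    refine cfc_congr fun x hx => ?_
    rw [mul_comm, ← div_eq_mul_inv, Real.div_sqrt]
  · conv_lhs => arg 1; arg 2; rw [← hid]
    rw [cfc_mul', cfc_mul', cfc_mul']
    refine cfc_congr fun x hx => ?_
    have h := Real.mul_self_sqrt (hsp x hx)
    by_cases h0 : Real.sqrt x = 0
    · simp [h0]
    · field_simp
      nlinarith [h]

lemma defect_psd {P : Matrix n n ℂ} (hP : P.PosSemidef) (R : Matrix n m ℂ) {Y : Matrix m m ℂ}
    (hY : Y.IsHermitian) (h : Y * Y * (Rᴴ * P * R) * (Y * Y) = Y * Y) :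
    (P - (P * R * Y) * (P * R * Y)ᴴ).PosSemidef := by
  have := hP.conjTranspose_mul_mul_same (1 - R * (Y * Y) * Rᴴ * P)
  convert this using 1
  have h' : R * (Y * Y * (Rᴴ * P * R) * (Y * Y)) * Rᴴ = R * (Y * Y) * Rᴴ := by rw [h]
  have h'' : P * (R * (Y * Y * (Rᴴ * P * R) * (Y * Y)) * Rᴴ) * P =
      P * (R * (Y * Y) * Rᴴ) * P := by rw [h']
  simp only [conjTranspose_sub, conjTranspose_mul, conjTranspose_one, conjTranspose_conjTranspose,
    hY.eq, hP.1.eq, Matrix.mul_sub, Matrix.sub_mul, Matrix.one_mul, Matrix.mul_one,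
    Matrix.mul_assoc] at h'' ⊢
  rw [h'']
  abel

/-- The witness for the overlap of two conditional states of Eve. -/
lemma exists_block {P Q : Matrix n n ℂ} (hP : P.PosSemidef) (hQ : Q.PosSemidef)
    (R : Matrix n m ℂ) :
    ∃ (Z : Matrix n n ℂ) (a b : Matrix m m ℂ), a.PosSemidef ∧ b.PosSemidef ∧
      a * a = Rᴴ * P * R ∧ b * b = Rᴴ * Q * R ∧ (fromBlocks P Zᴴ Z Q).PosSemidef ∧
      Rᴴ * Z * R = b * a := by
  obtain ⟨Y0, a, hY0, ha, haa, -, hYa, hY0'⟩ :=
    exists_pinv_sqrt (hP.conjTranspose_mul_mul_same R)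
  obtain ⟨Y1, b, hY1, hb, hbb, hYb, -, hY1'⟩ :=
    exists_pinv_sqrt (hQ.conjTranspose_mul_mul_same R)
  refine ⟨(Q * R * Y1) * (P * R * Y0)ᴴ, a, b, ha, hb, haa, hbb, ?_, ?_⟩
  · have h1 := posSemidef_self_mul_conjTranspose (fromRows (P * R * Y0) (Q * R * Y1))
    have h2 := (defect_psd hP R hY0 hY0').mul_mul_conjTranspose_same
      (fromRows (1 : Matrix n n ℂ) (0 : Matrix n n ℂ))
    have h3 := (defect_psd hQ R hY1 hY1').mul_mul_conjTranspose_same
      (fromRows (0 : Matrix n n ℂ) (1 : Matrix n n ℂ))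
    rw [conjTranspose_fromRows_eq_fromCols_conjTranspose, fromRows_mul_fromCols] at h1
    rw [conjTranspose_fromRows_eq_fromCols_conjTranspose, fromRows_mul,
      fromRows_mul_fromCols] at h2 h3
    convert (h1.add h2).add h3 using 1
    rw [fromBlocks_add, fromBlocks_add]
    simp only [Matrix.one_mul, Matrix.zero_mul, conjTranspose_one, conjTranspose_zero,
      Matrix.mul_one, Matrix.mul_zero, add_zero, add_sub_cancel]
    rw [conjTranspose_mul, conjTranspose_conjTranspose]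
  · rw [← hYa, ← hYb]
    simp only [conjTranspose_mul, hY0.eq, hP.1.eq, Matrix.mul_assoc]

lemma trace_mul_le_sqrt {X O : Matrix n n ℂ} (hX : X.IsHermitian) (hO : IsContr O) :
    (O * X).trace.re ≤ (cfc Real.sqrt (Xᴴ * X)).trace.re := by
  have hsa : IsSelfAdjoint X := hX.isSelfAdjoint
  have hpsd := posSemidef_conjTranspose_mul_self X
  have h0 : CFC.sqrt (Xᴴ * X) = cfc Real.sqrt (Xᴴ * X) := by
    refine CFC.sqrt_unique ?_ (cfc_psd _ _ Real.sqrt_nonneg).nonneg
    rw [cfc_mul']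
    conv_rhs => rw [← cfc_id'' hpsd.1]
    exact cfc_congr fun x hx => Real.mul_self_sqrt (spectrum_nonneg_of_nonneg hpsd.nonneg hx)
  rw [← h0]
  have h1 : X⁺ + X⁻ = CFC.sqrt (Xᴴ * X) := CFC.posPart_add_negPart X hsa
  have h2 : X⁺ - X⁻ = X := CFC.posPart_sub_negPart X hsa
  have hp : (X⁺).PosSemidef := (CFC.posPart_nonneg X).posSemidef
  have hq : (X⁻).PosSemidef := (CFC.negPart_nonneg X).posSemidef
  have t1 := trace_mul_re_nonneg hO.1 hp
  have t2 := trace_mul_re_nonneg hO.2 hq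
  rw [← h1]
  conv_lhs => rw [← h2]
  simp only [Matrix.sub_mul, Matrix.add_mul, Matrix.one_mul, Matrix.mul_sub, trace_sub, trace_add,
    Complex.sub_re, Complex.add_re] at t1 t2 ⊢
  linarith

end Vale.Agent.P372
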